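import Mathlib

/-! Matrix lemmas for the Schatten-3 Bellman function. -/

namespace Vale.Agent.P075

open Matrix Finset

variable {α β γ ι κ : Type} [Fintype α] [Fintype β] [Fintype γ] [Fintype ι] [Fintype κ]

/-- Real symmetric positive semidefinite matrices. -/
def PSD (M : Matrix α α ℝ) : Prop := Mᵀ = M ∧ ∀ x : α → ℝ, 0 ≤ x ⬝ᵥ (M *ᵥ x)

lemma PSD.add {M N : Matrix α α ℝ} (hM : PSD M) (hN : PSD N) : PSD (M + N) :=
  ⟨by rw [transpose_add, hM.1, hN.1], fun x => by
    rw [add_mulVec, dotProduct_add]; exact add_nonneg (hM.2 x) (hN.2 x)⟩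

lemma PSD.smul {M : Matrix α α ℝ} (hM : PSD M) {c : ℝ} (hc : 0 ≤ c) : PSD (c • M) :=
  ⟨by rw [transpose_smul, hM.1], fun x => by
    rw [smul_mulVec, dotProduct_smul]; exact mul_nonneg hc (hM.2 x)⟩

lemma dot_conj (M : Matrix α α ℝ) (G : Matrix α β ℝ) (x : β → ℝ) :
    x ⬝ᵥ ((Gᵀ * M * G) *ᵥ x) = (G *ᵥ x) ⬝ᵥ (M *ᵥ (G *ᵥ x)) := by
  rw [← mulVec_mulVec, ← mulVec_mulVec, dotProduct_mulVec x, vecMul_transpose]

lemma PSD.conj {M : Matrix α α ℝ} (hM : PSD M) (G : Matrix α β ℝ) : PSD (Gᵀ * M * G) :=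
  ⟨by rw [transpose_mul, transpose_mul, transpose_transpose, hM.1, Matrix.mul_assoc], fun x => by
    rw [dot_conj]; exact hM.2 _⟩

lemma dot_gram (G : Matrix α β ℝ) (x : β → ℝ) :
    x ⬝ᵥ ((Gᵀ * G) *ᵥ x) = (G *ᵥ x) ⬝ᵥ (G *ᵥ x) := by
  rw [← mulVec_mulVec, dotProduct_mulVec x, vecMul_transpose]

lemma dot_self_nonneg (x : α → ℝ) : 0 ≤ x ⬝ᵥ x :=
  Finset.sum_nonneg fun i _ => mul_self_nonneg (x i)

lemma psd_gram (G : Matrix α β ℝ) : PSD (Gᵀ * G) :=
  ⟨by rw [transpose_mul, transpose_transpose], fun x => by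
    rw [dot_gram]; exact dot_self_nonneg _⟩

lemma psd_gram' (G : Matrix α β ℝ) : PSD (G * Gᵀ) := by
  simpa using psd_gram Gᵀ

lemma psd_diagonal [DecidableEq α] {d : α → ℝ} (hd : ∀ i, 0 ≤ d i) : PSD (diagonal d) :=
  ⟨diagonal_transpose d, fun x => by
    simp only [dotProduct, mulVec_diagonal]
    exact Finset.sum_nonneg fun i _ => by nlinarith [hd i, mul_self_nonneg (x i)]⟩

lemma PSD.trace_nonneg {M : Matrix α α ℝ} (hM : PSD M) : 0 ≤ trace M := by
  classical
  refine Finset.sum_nonneg fun i _ => ?_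
  have := hM.2 (Pi.single i 1)
  simpa [dotProduct, mulVec, Pi.single_apply] using this

lemma PSD.trace_conj_nonneg {M : Matrix α α ℝ} (hM : PSD M) (G : Matrix α β ℝ) :
    0 ≤ trace (Gᵀ * M * G) := (hM.conj G).trace_nonneg

/-- Real spectral theorem. -/
lemma spectral [DecidableEq α] {M : Matrix α α ℝ} (hM : Mᵀ = M) :
    ∃ (U : Matrix α α ℝ) (d : α → ℝ), Uᵀ * U = 1 ∧ U * Uᵀ = 1 ∧ M = U * diagonal d * Uᵀ := by
  have hH : M.IsHermitian := by
    rw [Matrix.IsHermitian, conjTranspose_eq_transpose_of_trivial, hM]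
  refine ⟨hH.eigenvectorUnitary, hH.eigenvalues, ?_, ?_, ?_⟩
  · have := hH.eigenvectorUnitary.2.1
    rwa [star_eq_conjTranspose, conjTranspose_eq_transpose_of_trivial] at this
  · have := hH.eigenvectorUnitary.2.2
    rwa [star_eq_conjTranspose, conjTranspose_eq_transpose_of_trivial] at this
  · have := hH.spectral_theorem
    rw [Unitary.conjStarAlgAut_apply, star_eq_conjTranspose,
      conjTranspose_eq_transpose_of_trivial] at this
    simpa using this

lemma exists_sqrt {M : Matrix α α ℝ} (hM : PSD M) : ∃ S : Matrix α α ℝ, PSD S ∧ S * S = M := by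
  classical
  obtain ⟨U, d, h1, h2, h3⟩ := spectral hM.1
  have hd : ∀ i, 0 ≤ d i := by
    intro i
    have h4 : Uᵀ * M * U = diagonal d := by
      rw [h3]
      calc Uᵀ * (U * diagonal d * Uᵀ) * U = (Uᵀ * U) * diagonal d * (Uᵀ * U) := by
            simp only [Matrix.mul_assoc]
        _ = diagonal d := by rw [h1]; simp
    have := (hM.conj U).2 (Pi.single i 1)
    rw [h4] at this
    simpa [dotProduct, mulVec_diagonal, Pi.single_apply] using this
  refine ⟨U * diagonal (fun i => √(d i)) * Uᵀ, ?_, ?_⟩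
  · simpa using (psd_diagonal (d := fun i => √(d i)) fun i => Real.sqrt_nonneg _).conj Uᵀ
  · calc U * diagonal (fun i => √(d i)) * Uᵀ * (U * diagonal (fun i => √(d i)) * Uᵀ)
        = U * (diagonal (fun i => √(d i)) * (Uᵀ * U) * diagonal (fun i => √(d i))) * Uᵀ := by
          simp only [Matrix.mul_assoc]
      _ = M := by
          rw [h1, Matrix.mul_one, diagonal_mul_diagonal, h3]
          congr 3
          funext i
          exact Real.mul_self_sqrt (hd i)

/-- Compact singular value decomposition. -/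
lemma exists_svd (A : Matrix α β ℝ) :
    ∃ (ι : Type) (_ : Fintype ι) (_ : DecidableEq ι) (U : Matrix α ι ℝ) (V : Matrix β ι ℝ)
      (a : ι → ℝ), (∀ i, 0 ≤ a i) ∧ Uᵀ * U = 1 ∧ Vᵀ * V = 1 ∧ A = U * diagonal a * Vᵀ := by
  classical
  obtain ⟨W, d, h1, h2, h3⟩ := spectral (psd_gram A).1
  have h4 : (A * W)ᵀ * (A * W) = diagonal d := by
    calc (A * W)ᵀ * (A * W) = Wᵀ * (Aᵀ * A) * W := by
          simp only [transpose_mul, Matrix.mul_assoc]
      _ = (Wᵀ * W) * diagonal d * (Wᵀ * W) := by rw [h3]; simp only [Matrix.mul_assoc]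
      _ = diagonal d := by rw [h1]; simp
  have h5 : ∀ i j, ∑ x, (A * W) x i * (A * W) x j = if i = j then d i else 0 := by
    intro i j
    have := congrFun (congrFun h4 i) j
    rw [Matrix.mul_apply, diagonal_apply] at this
    simpa using this
  have hd : ∀ i, 0 ≤ d i := by
    intro i
    have := h5 i i
    simp only [if_true] at this
    rw [← this]
    exact Finset.sum_nonneg fun x _ => mul_self_nonneg _
  have hz : ∀ i, d i = 0 → ∀ x, (A * W) x i = 0 := by
    intro i hi x
    have := h5 i i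
    simp only [if_true, hi] at this
    have := (Finset.sum_eq_zero_iff_of_nonneg (fun x _ => mul_self_nonneg _)).1 this x
      (Finset.mem_univ _)
    exact mul_self_eq_zero.1 this
  refine ⟨{i // d i ≠ 0}, inferInstance, inferInstance,
    Matrix.of fun x i => (A * W) x i.1 / √(d i.1), Matrix.of fun y i => W y i.1,
    fun i => √(d i.1), fun i => Real.sqrt_nonneg _, ?_, ?_, ?_⟩
  · ext i j
    have hi : √(d i.1) ≠ 0 := Real.sqrt_ne_zero'.2 (lt_of_le_of_ne (hd _) i.2.symm)
    simp only [Matrix.mul_apply (M := _ᵀ), transpose_apply, of_apply, div_mul_div_comm,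
      ← Finset.sum_div, h5, one_apply]
    by_cases hij : i = j
    · subst hij
      simp only [if_true]
      rw [Real.mul_self_sqrt (hd _), div_self i.2]
    · have : i.1 ≠ j.1 := fun h => hij (Subtype.ext h)
      simp [hij, this]
  · ext i j
    have := congrFun (congrFun h1 i.1) j.1
    rw [Matrix.mul_apply, one_apply] at this
    simp only [transpose_apply] at this
    simp only [Matrix.mul_apply, transpose_apply, of_apply, this, one_apply, Subtype.ext_iff]
  · ext x y
    have e1 : A x y = ∑ i, (A * W) x i * W y i := by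
      have : A = (A * W) * Wᵀ := by rw [Matrix.mul_assoc, h2, Matrix.mul_one]
      conv_lhs => rw [this]
      rw [Matrix.mul_apply]
      simp only [transpose_apply]
    rw [e1, Matrix.mul_apply]
    simp only [mul_diagonal, of_apply, transpose_apply]
    rw [← Finset.sum_subtype (s := Finset.univ.filter fun i => d i ≠ 0)
      (p := fun i => d i ≠ 0) (by simp) (fun i => (A * W) x i / √(d i) * √(d i) * W y i),
      Finset.sum_filter]
    refine Finset.sum_congr rfl fun i _ => ?_
    by_cases hi : d i = 0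
    · simp [hi, hz i hi x]
    · have : √(d i) ≠ 0 := Real.sqrt_ne_zero'.2 (lt_of_le_of_ne (hd _) (Ne.symm hi))
      rw [if_pos hi, div_mul_cancel₀ _ this]

/-- Exact remainder in the trace Young inequality. -/
lemma young_id (S T : Matrix α α ℝ) :
    trace (S * S * S) + 2 * trace (T * T * T) - 3 * trace (S * (T * T))
      = trace ((T - S) * ((2 : ℝ) • T + S) * (T - S)) := by
  have e : (T - S) * ((2 : ℝ) • T + S) * (T - S) =
      (2 : ℝ) • (T * T * T) - (2 : ℝ) • (T * T * S) + T * S * T - T * S * S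
        - (2 : ℝ) • (S * T * T) + (2 : ℝ) • (S * T * S) - S * S * T + S * S * S := by
    simp only [Matrix.sub_mul, Matrix.mul_sub, Matrix.add_mul, Matrix.mul_add, Matrix.smul_mul,
      Matrix.mul_smul, smul_sub]
    abel
  have c1 : trace (T * T * S) = trace (S * (T * T)) := by rw [trace_mul_comm]
  have c2 : trace (T * S * T) = trace (S * (T * T)) := by
    rw [trace_mul_cycle, trace_mul_comm]
  have c3 : trace (S * T * T) = trace (S * (T * T)) := by rw [Matrix.mul_assoc]
  have c4 : trace (T * S * S) = trace (S * T * S) := by rw [trace_mul_cycle]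
  have c5 : trace (S * S * T) = trace (S * T * S) := by rw [trace_mul_cycle S T S]
  rw [e]
  simp only [trace_add, trace_sub, trace_smul, smul_eq_mul, c1, c2, c3, c4, c5]
  ring

lemma young_rem_nonneg {S T : Matrix α α ℝ} (hS : PSD S) (hT : PSD T) :
    0 ≤ trace ((T - S) * ((2 : ℝ) • T + S) * (T - S)) := by
  have h := ((hT.smul (c := 2) (by norm_num)).add hS).trace_conj_nonneg (T - S)
  rwa [transpose_sub, hT.1, hS.1] at h

/-- `phi X = tr X^{3/2}` for positive semidefinite `X`. -/
noncomputable def phi (X : Matrix α α ℝ) : ℝ := by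
  classical
  exact if h : ∃ S : Matrix α α ℝ, PSD S ∧ S * S = X then
    trace (h.choose * h.choose * h.choose) else 0

lemma cube_le {S T : Matrix α α ℝ} (hS : PSD S) (hT : PSD T) (h : S * S = T * T) :
    trace (S * S * S) ≤ trace (T * T * T) := by
  have h1 := young_id S T
  have h2 := young_rem_nonneg hS hT
  have h3 : trace (S * (T * T)) = trace (S * S * S) := by rw [← h, Matrix.mul_assoc]
  linarith

lemma phi_eq {X S : Matrix α α ℝ} (hS : PSD S) (h : S * S = X) :
    phi X = trace (S * S * S) := by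
  have hex : ∃ S : Matrix α α ℝ, PSD S ∧ S * S = X := ⟨S, hS, h⟩
  unfold phi
  rw [dif_pos hex]
  have h1 := hex.choose_spec
  exact le_antisymm (cube_le h1.1 hS (by rw [h1.2, h])) (cube_le hS h1.1 (by rw [h1.2, h]))

lemma cube_nonneg {S : Matrix α α ℝ} (hS : PSD S) : 0 ≤ trace (S * S * S) := by
  have := hS.trace_conj_nonneg S
  rwa [hS.1] at this

lemma phi_nonneg (X : Matrix α α ℝ) : 0 ≤ phi X := by
  unfold phi
  split_ifs with h
  · exact cube_nonneg h.choose_spec.1
  · exact le_rfl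

lemma phi_svd [DecidableEq ι] (U : Matrix α ι ℝ) (a : ι → ℝ) (ha : ∀ i, 0 ≤ a i)
    (hU : Uᵀ * U = 1) :
    phi (U * diagonal a * diagonal a * Uᵀ) = ∑ i, a i * a i * a i := by
  have hS : PSD (U * diagonal a * Uᵀ) := by simpa using (psd_diagonal ha).conj Uᵀ
  have h2 : U * diagonal a * Uᵀ * (U * diagonal a * Uᵀ) = U * diagonal a * diagonal a * Uᵀ := by
    calc U * diagonal a * Uᵀ * (U * diagonal a * Uᵀ)
        = U * diagonal a * (Uᵀ * U) * diagonal a * Uᵀ := by simp only [Matrix.mul_assoc]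
      _ = _ := by rw [hU, Matrix.mul_one]
  rw [phi_eq hS h2, h2]
  calc trace (U * diagonal a * diagonal a * Uᵀ * (U * diagonal a * Uᵀ))
      = trace (U * (diagonal a * diagonal a * (Uᵀ * U) * diagonal a * Uᵀ)) := by
        simp only [Matrix.mul_assoc]
    _ = trace ((diagonal a * diagonal a * (Uᵀ * U) * diagonal a * Uᵀ) * U) := by
        rw [trace_mul_comm]
    _ = trace (diagonal a * diagonal a * (Uᵀ * U) * diagonal a * (Uᵀ * U)) := by
        simp only [Matrix.mul_assoc]
    _ = _ := by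
        rw [hU]
        simp [diagonal_mul_diagonal, trace_diagonal]

lemma phi_gram_comm (R : Matrix α β ℝ) : phi (R * Rᵀ) = phi (Rᵀ * R) := by
  obtain ⟨ι, _, _, U, V, a, ha, hU, hV, hR⟩ := exists_svd R
  have e1 : R * Rᵀ = U * diagonal a * diagonal a * Uᵀ := by
    calc R * Rᵀ = U * diagonal a * (Vᵀ * V) * diagonal a * Uᵀ := by
          rw [hR]; simp only [transpose_mul, transpose_transpose, diagonal_transpose,
            Matrix.mul_assoc]
      _ = _ := by rw [hV, Matrix.mul_one]
  have e2 : Rᵀ * R = V * diagonal a * diagonal a * Vᵀ := by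
    calc Rᵀ * R = V * diagonal a * (Uᵀ * U) * diagonal a * Vᵀ := by
          rw [hR]; simp only [transpose_mul, transpose_transpose, diagonal_transpose,
            Matrix.mul_assoc]
      _ = _ := by rw [hU, Matrix.mul_one]
  rw [e1, e2, phi_svd U a ha hU, phi_svd V a ha hV]

/-- Operator monotonicity of the square root, in the form needed. -/
lemma op_mono {D U : Matrix α α ℝ} (hD : PSD D) (hU : Uᵀ = U)
    (h : ∀ v, (U *ᵥ v) ⬝ᵥ (U *ᵥ v) ≤ (D *ᵥ v) ⬝ᵥ (D *ᵥ v)) : PSD (D - U) := by
  classical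
  have hs : (D - U)ᵀ = D - U := by rw [transpose_sub, hD.1, hU]
  obtain ⟨W, e, h1, h2, h3⟩ := spectral hs
  have he : ∀ i, 0 ≤ e i := by
    intro i
    by_contra hneg
    push Not at hneg
    set v : α → ℝ := W *ᵥ Pi.single i 1 with hv
    have hFv : (D - U) *ᵥ v = e i • v := by
      rw [h3, hv, mulVec_mulVec, Matrix.mul_assoc, Matrix.mul_assoc, h1, Matrix.mul_one,
        ← mulVec_mulVec, diagonal_mulVec_single, ← mulVec_smul]
      congr 1
      ext j
      by_cases hj : j = i
      · subst hj; simp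
      · simp [hj]
    have hvv : v ⬝ᵥ v = 1 := by
      rw [hv, ← dot_gram, h1]; simp
    have hUv : U *ᵥ v = D *ᵥ v - e i • v := by
      rw [← hFv, sub_mulVec]; abel
    have h4 := h v
    rw [hUv] at h4
    simp only [sub_dotProduct, dotProduct_sub, smul_dotProduct, dotProduct_smul, smul_eq_mul,
      hvv] at h4
    have h5 := hD.2 v
    rw [dotProduct_comm (D *ᵥ v) v] at h4
    nlinarith
  rw [h3]
  simpa using (psd_diagonal he).conj Wᵀ

end Vale.Agent.P075
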