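import Vale.Agent.P075.Core

/-! The convexity defect of `phi` and the trilinear estimate. -/

namespace Vale.Agent.P075

open Matrix Finset

variable {α β γ ι κ : Type} [Fintype α] [Fintype β] [Fintype γ] [Fintype ι] [Fintype κ]

lemma sqrt_two_mul_self : √2 * √2 = (2 : ℝ) := Real.mul_self_sqrt (by norm_num)

lemma sqrt_two_pos : (0 : ℝ) < √2 := Real.sqrt_pos.2 (by norm_num)

/-- Quantitative midpoint convexity of `phi`. -/
lemma defect_core {Y0 Y1 : Matrix α α ℝ} (h0 : PSD Y0) (h1 : PSD Y1) :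
    ∃ S0 S : Matrix α α ℝ, PSD S0 ∧ PSD S ∧ S0 * S0 = Y0 ∧ S * S = (1 / 2 : ℝ) • (Y0 + Y1) ∧
      ∀ E : Matrix α α ℝ, Eᵀ = E →
        √2 / 2 * (trace (E * (Y0 - Y1)) - trace (E * S0 * E) - trace (E * S * E))
          ≤ √2 * (phi Y0 + phi Y1) - phi (Y0 + Y1) := by
  obtain ⟨S0, hS0, e0⟩ := exists_sqrt h0
  obtain ⟨S1, hS1, e1⟩ := exists_sqrt h1
  obtain ⟨S, hS, e⟩ := exists_sqrt ((h0.add h1).smul (c := 1 / 2) (by norm_num))
  refine ⟨S0, S, hS0, hS, e0, e, fun E hE => ?_⟩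
  have s2 := sqrt_two_mul_self
  have s2p := sqrt_two_pos
  have p0 := phi_eq hS0 e0
  have p1 := phi_eq hS1 e1
  have p : phi (Y0 + Y1) = 2 * √2 * trace (S * S * S) := by
    have e' : (√2 • S) * (√2 • S) = Y0 + Y1 := by
      rw [Matrix.smul_mul, Matrix.mul_smul, smul_smul, s2, e, smul_smul]; norm_num
    rw [phi_eq (hS.smul s2p.le) e']
    simp only [Matrix.smul_mul, Matrix.mul_smul, smul_smul, trace_smul, smul_eq_mul]
    rw [s2]; ring
  have y0 := young_id S S0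
  have y1 := young_id S S1
  have r1 := young_rem_nonneg hS hS1
  rw [e0] at y0
  rw [e1] at y1
  have t1 : trace (S * Y0) + trace (S * Y1) = 2 * trace (S * S * S) := by
    rw [← trace_add, ← Matrix.mul_add, Matrix.mul_assoc, e, Matrix.mul_smul, trace_smul]
    simp only [smul_eq_mul]; ring
  set D := S0 - S with hD
  have hDs : Dᵀ = D := by rw [hD, transpose_sub, hS0.1, hS.1]
  -- the remainder dominates `tr (D (S0 + S) D)`
  have r0 : trace (D * (S0 + S) * D) ≤ trace (D * ((2 : ℝ) • S0 + S) * D) := by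
    have h := hS0.trace_conj_nonneg D
    rw [hDs] at h
    have e2 : D * ((2 : ℝ) • S0 + S) * D = D * (S0 + S) * D + D * S0 * D := by
      rw [two_smul]; simp only [Matrix.mul_add, Matrix.add_mul]; abel
    rw [e2, trace_add]; linarith
  -- Cauchy-Schwarz
  have cs : 0 ≤ trace ((E - D) * (S0 + S) * (E - D)) := by
    have h := (hS0.add hS).trace_conj_nonneg (E - D)
    rwa [transpose_sub, hE, hDs] at h
  have hY : Y0 - Y1 = (2 : ℝ) • (S0 * D + D * S) := by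
    have : S0 * D + D * S = S0 * S0 - S * S := by
      rw [hD]; simp only [Matrix.mul_sub, Matrix.sub_mul]; abel
    rw [this, e0, e]
    ext i j; simp; ring
  have q1 : trace (D * S0 * E) = trace (E * S0 * D) := by
    rw [← trace_transpose, transpose_mul, transpose_mul, hE, hS0.1, hDs, Matrix.mul_assoc]
  have q2 : trace (D * S * E) = trace (E * S * D) := by
    rw [← trace_transpose, transpose_mul, transpose_mul, hE, hS.1, hDs, Matrix.mul_assoc]
  have q3 : trace (E * (D * S)) = trace (D * S * E) := trace_mul_comm _ _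
  have q4 : trace (E * (Y0 - Y1)) = 2 * (trace (E * S0 * D) + trace (E * S * D)) := by
    rw [hY, Matrix.mul_smul, trace_smul, Matrix.mul_add, trace_add, q3, q2, ← Matrix.mul_assoc]
    simp
  have cs' : trace ((E - D) * (S0 + S) * (E - D)) =
      trace (E * S0 * E) + trace (E * S * E) - 2 * (trace (E * S0 * D) + trace (E * S * D))
        + trace (D * (S0 + S) * D) := by
    simp only [Matrix.sub_mul, Matrix.mul_sub, Matrix.add_mul, Matrix.mul_add, trace_add,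
      trace_sub, q1, q2]
    ring
  rw [p, p0, p1, q4]
  have key : 2 * (trace (E * S0 * D) + trace (E * S * D)) - trace (E * S0 * E) - trace (E * S * E)
      ≤ 2 * (trace (S0 * S0 * S0) + trace (S1 * S1 * S1)) - 4 * trace (S * S * S) := by
    rw [e0, e1]
    linarith
  nlinarith

lemma phi_add_le {Y0 Y1 : Matrix α α ℝ} (h0 : PSD Y0) (h1 : PSD Y1) :
    phi (Y0 + Y1) ≤ √2 * (phi Y0 + phi Y1) := by
  obtain ⟨S0, S, -, -, -, -, h⟩ := defect_core h0 h1
  have := h 0 transpose_zero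
  simp only [Matrix.zero_mul, trace_zero, sub_zero, mul_zero] at this
  linarith

lemma contr_transpose [DecidableEq ι] {J : Matrix α ι ℝ} (hJ : Jᵀ * J = 1) (w : α → ℝ) :
    (Jᵀ *ᵥ w) ⬝ᵥ (Jᵀ *ᵥ w) ≤ w ⬝ᵥ w := by
  have h := dot_self_nonneg (w - J *ᵥ (Jᵀ *ᵥ w))
  have e1 : (J *ᵥ (Jᵀ *ᵥ w)) ⬝ᵥ (J *ᵥ (Jᵀ *ᵥ w)) = (Jᵀ *ᵥ w) ⬝ᵥ (Jᵀ *ᵥ w) := by
    rw [← dot_gram, hJ, one_mulVec]
  have e2 : w ⬝ᵥ (J *ᵥ (Jᵀ *ᵥ w)) = (Jᵀ *ᵥ w) ⬝ᵥ (Jᵀ *ᵥ w) := by
    rw [dotProduct_mulVec w, ← vecMul_transpose, transpose_transpose]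
  simp only [sub_dotProduct, dotProduct_sub] at h
  rw [dotProduct_comm (J *ᵥ (Jᵀ *ᵥ w)) w, e1, e2] at h
  linarith

lemma trace_compress_le [DecidableEq ι] {T : Matrix α α ℝ} (hT : PSD T) {J : Matrix α ι ℝ}
    (hJ : Jᵀ * J = 1) {a : ι → ℝ} (ha : ∀ i, 0 ≤ a i)
    (h : ∀ v, (T *ᵥ (J *ᵥ v)) ⬝ᵥ (T *ᵥ (J *ᵥ v)) ≤ (diagonal a *ᵥ v) ⬝ᵥ (diagonal a *ᵥ v))
    (g : Matrix ι κ ℝ) :
    trace (gᵀ * (Jᵀ * T * J) * g) ≤ ∑ k, ∑ i, a i * (g i k * g i k) := by
  have hp : PSD (diagonal a - Jᵀ * T * J) := by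
    refine op_mono (psd_diagonal ha) (hT.conj J).1 fun v => le_trans ?_ (h v)
    rw [← mulVec_mulVec, ← mulVec_mulVec]
    exact contr_transpose hJ _
  have h2 := hp.trace_conj_nonneg g
  rw [Matrix.mul_sub, Matrix.sub_mul, trace_sub] at h2
  have h3 : trace (gᵀ * diagonal a * g) = ∑ k, ∑ i, a i * (g i k * g i k) := by
    simp only [trace, diag_apply, Matrix.mul_apply (N := g), mul_diagonal, transpose_apply]
    refine Finset.sum_congr rfl fun k _ => Finset.sum_congr rfl fun i _ => by ring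
  linarith

/-- The defect of `phi` under splitting the rows by two complementary projections. -/
lemma defect_rows [DecidableEq α] [DecidableEq ι] [DecidableEq κ]
    (R1 : Matrix α ι ℝ) (R2 : Matrix α κ ℝ) {a : ι → ℝ} {c : κ → ℝ}
    (ha : ∀ i, 0 ≤ a i) (hc : ∀ k, 0 ≤ c k)
    (hR1 : R1ᵀ * R1 = diagonal a * diagonal a) (hR2 : R2ᵀ * R2 = diagonal c * diagonal c)
    {P0 P1 h : Matrix α α ℝ} (hP0 : P0ᵀ = P0) (hP1 : P1ᵀ = P1)
    (hs : P0 * P0 + P1 * P1 = 1) (hh : P0 * P0 - P1 * P1 = h) (g : Matrix κ ι ℝ) :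
    √2 * ∑ k, ∑ i, (g k i * (R2ᵀ * h * R1) k i - (a i + c k) * (g k i * g k i))
      ≤ √2 * (phi (P0 * (R1 * R1ᵀ + R2 * R2ᵀ) * P0) + phi (P1 * (R1 * R1ᵀ + R2 * R2ᵀ) * P1))
        - phi (R1 * R1ᵀ + R2 * R2ᵀ) := by
  set R : Matrix α (ι ⊕ κ) ℝ := fromCols R1 R2 with hR
  set J1 : Matrix (ι ⊕ κ) ι ℝ := fromRows 1 0 with hJ1
  set J2 : Matrix (ι ⊕ κ) κ ℝ := fromRows 0 1 with hJ2
  have j11 : J1ᵀ * J1 = 1 := by
    rw [hJ1, transpose_fromRows, fromCols_mul_fromRows]; simp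
  have j22 : J2ᵀ * J2 = 1 := by
    rw [hJ2, transpose_fromRows, fromCols_mul_fromRows]; simp
  have j12 : J1ᵀ * J2 = 0 := by
    rw [hJ1, hJ2, transpose_fromRows, fromCols_mul_fromRows]; simp
  have j21 : J2ᵀ * J1 = 0 := by
    rw [hJ1, hJ2, transpose_fromRows, fromCols_mul_fromRows]; simp
  have r1 : R * J1 = R1 := by rw [hR, hJ1, fromCols_mul_fromRows]; simp
  have r2 : R * J2 = R2 := by rw [hR, hJ2, fromCols_mul_fromRows]; simp
  have hX : R1 * R1ᵀ + R2 * R2ᵀ = R * Rᵀ := by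
    rw [hR, transpose_fromCols, fromCols_mul_fromRows]
  have hhs : hᵀ = h := by
    rw [← hh, transpose_sub, transpose_mul, transpose_mul, hP0, hP1]
  have f0 : phi (P0 * (R * Rᵀ) * P0) = phi ((P0 * R)ᵀ * (P0 * R)) := by
    rw [← phi_gram_comm, transpose_mul, hP0]; simp only [Matrix.mul_assoc]
  have f1 : phi (P1 * (R * Rᵀ) * P1) = phi ((P1 * R)ᵀ * (P1 * R)) := by
    rw [← phi_gram_comm, transpose_mul, hP1]; simp only [Matrix.mul_assoc]
  have hsum : (P0 * R)ᵀ * (P0 * R) + (P1 * R)ᵀ * (P1 * R) = Rᵀ * R := by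
    calc (P0 * R)ᵀ * (P0 * R) + (P1 * R)ᵀ * (P1 * R) = Rᵀ * (P0 * P0 + P1 * P1) * R := by
          simp only [transpose_mul, hP0, hP1, Matrix.mul_add, Matrix.add_mul, Matrix.mul_assoc]
      _ = _ := by rw [hs, Matrix.mul_one]
  have hdiff : (P0 * R)ᵀ * (P0 * R) - (P1 * R)ᵀ * (P1 * R) = Rᵀ * h * R := by
    rw [← hh]
    simp only [transpose_mul, hP0, hP1, Matrix.mul_sub, Matrix.sub_mul, Matrix.mul_assoc]
  rw [hX, f0, f1, phi_gram_comm R]
  obtain ⟨S0, S, hS0, hS, e0, e, hE⟩ := defect_core (psd_gram (P0 * R)) (psd_gram (P1 * R))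
  rw [hsum] at e hE
  rw [hdiff] at hE
  set E : Matrix (ι ⊕ κ) (ι ⊕ κ) ℝ := J1 * gᵀ * J2ᵀ + J2 * g * J1ᵀ with hEdef
  have hEs : Eᵀ = E := by
    rw [hEdef]
    simp only [transpose_add, transpose_mul, transpose_transpose, Matrix.mul_assoc]
    rw [add_comm]
  refine le_trans ?_ (hE E hEs)
  -- quadratic terms
  have quad : ∀ T : Matrix (ι ⊕ κ) (ι ⊕ κ) ℝ, PSD T →
      (∀ w, (T *ᵥ w) ⬝ᵥ (T *ᵥ w) ≤ (R *ᵥ w) ⬝ᵥ (R *ᵥ w)) →
      trace (E * T * E) ≤ ∑ k, ∑ i, (a i + c k) * (g k i * g k i) := by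
    intro T hT hle
    have b1 := trace_compress_le hT j11 ha (fun v => by
      refine le_trans (hle _) (le_of_eq ?_)
      rw [mulVec_mulVec, r1, ← dot_gram, hR1, ← dot_gram, diagonal_transpose]) gᵀ
    have b2 := trace_compress_le hT j22 hc (fun v => by
      refine le_trans (hle _) (le_of_eq ?_)
      rw [mulVec_mulVec, r2, ← dot_gram, hR2, ← dot_gram, diagonal_transpose]) g
    have e3 : trace (E * T * E) =
        trace (gᵀᵀ * (J1ᵀ * T * J1) * gᵀ) + trace (gᵀ * (J2ᵀ * T * J2) * g) := by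
      have e4 : E * E = J1 * gᵀ * g * J1ᵀ + J2 * g * gᵀ * J2ᵀ := by
        calc E * E = J1 * gᵀ * (J2ᵀ * J1) * gᵀ * J2ᵀ + J1 * gᵀ * (J2ᵀ * J2) * g * J1ᵀ
              + J2 * g * (J1ᵀ * J1) * gᵀ * J2ᵀ + J2 * g * (J1ᵀ * J2) * g * J1ᵀ := by
              rw [hEdef]
              simp only [Matrix.mul_add, Matrix.add_mul, Matrix.mul_assoc]
              abel
          _ = _ := by rw [j11, j22, j12, j21]; simp
      rw [trace_mul_cycle, e4, Matrix.add_mul, trace_add, transpose_transpose]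
      congr 1
      · calc trace (J1 * gᵀ * g * J1ᵀ * T) = trace ((J1 * gᵀ) * (g * J1ᵀ * T)) := by
              simp only [Matrix.mul_assoc]
          _ = trace ((g * J1ᵀ * T) * (J1 * gᵀ)) := trace_mul_comm _ _
          _ = _ := by simp only [Matrix.mul_assoc]
      · calc trace (J2 * g * gᵀ * J2ᵀ * T) = trace ((J2 * g) * (gᵀ * J2ᵀ * T)) := by
              simp only [Matrix.mul_assoc]
          _ = trace ((gᵀ * J2ᵀ * T) * (J2 * g)) := trace_mul_comm _ _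
          _ = _ := by simp only [Matrix.mul_assoc]
    rw [e3]
    have e5 : ∑ k, ∑ i, (a i + c k) * (g k i * g k i) =
        ∑ k, ∑ i, a i * (gᵀ i k * gᵀ i k) + ∑ i, ∑ k, c k * (g k i * g k i) := by
      rw [Finset.sum_comm (f := fun i k => c k * (g k i * g k i)), ← Finset.sum_add_distrib]
      refine Finset.sum_congr rfl fun k _ => ?_
      rw [← Finset.sum_add_distrib]
      refine Finset.sum_congr rfl fun i _ => ?_
      simp only [transpose_apply]; ring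
    rw [e5]
    linarith
  have q0 := quad S0 hS0 fun w => by
    have h1 := (psd_gram (P1 * R)).2 w
    have h2 : (S0 *ᵥ w) ⬝ᵥ (S0 *ᵥ w) = w ⬝ᵥ (((P0 * R)ᵀ * (P0 * R)) *ᵥ w) := by
      rw [← e0, ← dot_gram, hS0.1]
    rw [h2, ← dot_gram R, ← hsum, add_mulVec, dotProduct_add]
    linarith
  have q := quad S hS fun w => by
    have h1 := (psd_gram R).2 w
    have h2 : (S *ᵥ w) ⬝ᵥ (S *ᵥ w) = w ⬝ᵥ (((1 / 2 : ℝ) • (Rᵀ * R)) *ᵥ w) := by
      rw [← e, ← dot_gram, hS.1]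
    rw [h2, ← dot_gram R, smul_mulVec, dotProduct_smul, smul_eq_mul]
    linarith
  have lin : trace (E * (Rᵀ * h * R)) = 2 * ∑ k, ∑ i, g k i * (R2ᵀ * h * R1) k i := by
    have l1 : trace (J1 * gᵀ * J2ᵀ * (Rᵀ * h * R)) = trace (gᵀ * (R2ᵀ * h * R1)) := by
      calc trace (J1 * gᵀ * J2ᵀ * (Rᵀ * h * R)) = trace (J1 * (gᵀ * J2ᵀ * (Rᵀ * h * R))) := by
            simp only [Matrix.mul_assoc]
        _ = trace ((gᵀ * J2ᵀ * (Rᵀ * h * R)) * J1) := trace_mul_comm _ _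
        _ = _ := by rw [← r1, ← r2]; simp only [transpose_mul, Matrix.mul_assoc]
    have l2 : trace (J2 * g * J1ᵀ * (Rᵀ * h * R)) = trace (gᵀ * (R2ᵀ * h * R1)) := by
      calc trace (J2 * g * J1ᵀ * (Rᵀ * h * R)) = trace ((J2 * g * J1ᵀ * (Rᵀ * h * R))ᵀ) :=
            (trace_transpose _).symm
        _ = trace ((Rᵀ * h * R * J1) * (gᵀ * J2ᵀ)) := by
            simp only [transpose_mul, transpose_transpose, hhs, Matrix.mul_assoc]
        _ = trace ((gᵀ * J2ᵀ) * (Rᵀ * h * R * J1)) := trace_mul_comm _ _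
        _ = _ := by rw [← r1, ← r2]; simp only [transpose_mul, Matrix.mul_assoc]
    have l3 : trace (gᵀ * (R2ᵀ * h * R1)) = ∑ k, ∑ i, g k i * (R2ᵀ * h * R1) k i := by
      rw [Finset.sum_comm]
      simp only [trace, diag_apply, Matrix.mul_apply (M := gᵀ), transpose_apply]
    rw [hEdef, Matrix.add_mul, trace_add, l1, l2, l3]; ring
  rw [lin]
  simp only [Finset.sum_sub_distrib]
  have s2p := sqrt_two_pos
  nlinarith

end Vale.Agent.P075
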