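import Mathlib

/-! Definitions for the dyadic triangular Hilbert form. -/

namespace Vale.Agent.P075

open MeasureTheory Set

/-- The dyadic interval `[2^k n, 2^k (n+1))`. -/
def dyad (k : ℤ) (n : ℕ) : Set ℝ := Ico ((2 : ℝ) ^ k * n) ((2 : ℝ) ^ k * (n + 1))

/-- The Haar function of `[2^k n, 2^k (n+1))`: indicator of the left half minus indicator of the
right half. -/
noncomputable def haar (k : ℤ) (n : ℕ) (x : ℝ) : ℝ :=
  (Ico ((2 : ℝ) ^ k * n) ((2 : ℝ) ^ k * (n + 1 / 2))).indicator (fun _ => (1 : ℝ)) x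
    - (Ico ((2 : ℝ) ^ k * (n + 1 / 2)) ((2 : ℝ) ^ k * (n + 1))).indicator (fun _ => (1 : ℝ)) x

/-- The term `L_I` for the triple of dyadic intervals of scale `k` with indices `n0, n1, n2`. -/
noncomputable def Lform (k : ℤ) (n0 n1 n2 : ℕ) (F0 F1 F2 : ℝ × ℝ → ℝ) : ℝ :=
  (2 : ℝ) ^ (-k) * ∫ x in dyad k n0 ×ˢ dyad k n1 ×ˢ dyad k n2,
    F0 (x.1, x.2.1) * F1 (x.2.1, x.2.2) * F2 (x.2.2, x.1) *
      (haar k n0 x.1 * haar k n1 x.2.1 * haar k n2 x.2.2)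

/-- Index triples whose bitwise XOR is zero. -/
def XorTriple : Type := {n : ℕ × ℕ × ℕ // n.1 ^^^ n.2.1 ^^^ n.2.2 = 0}

/-- The dyadic triangular Hilbert form. -/
noncomputable def Lam (S : Finset ℤ) (ε : ℤ → ℝ) (F0 F1 F2 : ℝ × ℝ → ℝ) : ℝ :=
  ∑ k ∈ S, ε k * ∑' n : XorTriple, Lform k n.1.1 n.1.2.1 n.1.2.2 F0 F1 F2

/-- The `L^3([0,∞)^2)` norm. -/
noncomputable def norm3 (F : ℝ × ℝ → ℝ) : ℝ :=
  (eLpNorm F 3 (volume.restrict (Ici (0 : ℝ) ×ˢ Ici (0 : ℝ)))).toReal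

/-- Bounded, compactly supported, Lebesgue measurable real functions. -/
def Admissible (F : ℝ × ℝ → ℝ) : Prop :=
  AEMeasurable F volume ∧ (∃ M : ℝ, ∀ p, |F p| ≤ M) ∧ HasCompactSupport F

end Vale.Agent.P075
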