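import Vale.Agent.P075.Step

/-! The discrete dyadic triangular estimate. -/

namespace Vale.Agent.P075

open Matrix Finset

/-- Projection onto the dyadic block number `n` of length `2^k`. -/
noncomputable def pr (N k n : ℕ) : Matrix (Fin N) (Fin N) ℝ :=
  diagonal fun x => if x.val / 2 ^ k = n then 1 else 0

/-- Projection onto the coordinates whose bit number `k` is `i`. -/
noncomputable def bitP (N k i : ℕ) : Matrix (Fin N) (Fin N) ℝ :=
  diagonal fun x => if x.val / 2 ^ k % 2 = i then 1 else 0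

/-- The sign of bit number `k`. -/
noncomputable def hb (N k : ℕ) : Matrix (Fin N) (Fin N) ℝ :=
  diagonal fun x => if x.val / 2 ^ k % 2 = 0 then 1 else -1

lemma split_bit (N k : ℕ) : Split (bitP N k 0) (bitP N k 1) (hb N k) := by
  refine ⟨diagonal_transpose _, diagonal_transpose _, ?_, ?_, ?_⟩
  · simp only [bitP, diagonal_mul_diagonal, diagonal_add]
    rw [← diagonal_one]
    congr 1
    funext x
    rcases Nat.mod_two_eq_zero_or_one (x.val / 2 ^ k) with h | h <;> simp [h]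
  · simp only [bitP, hb, diagonal_mul_diagonal, diagonal_sub]
    congr 1
    funext x
    rcases Nat.mod_two_eq_zero_or_one (x.val / 2 ^ k) with h | h <;> simp [h]
  · simp only [hb, diagonal_transpose, diagonal_mul_diagonal]
    rw [← diagonal_one]
    congr 1
    funext x
    split_ifs <;> norm_num

/-- A dyadic block of a kernel. -/
noncomputable def blk (N k n m : ℕ) (F : ℕ → ℕ → ℝ) : Matrix (Fin N) (Fin N) ℝ :=
  pr N k n * (Matrix.of fun x y : Fin N => F x y) * pr N k m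

lemma blk_apply (N k n m : ℕ) (F : ℕ → ℕ → ℝ) (x y : Fin N) :
    blk N k n m F x y =
      (if x.val / 2 ^ k = n then 1 else 0) * F x y * (if y.val / 2 ^ k = m then 1 else 0) := by
  simp only [blk, pr, mul_diagonal, diagonal_mul, of_apply]

lemma blk_child (N k n m i j : ℕ) (hi : i < 2) (hj : j < 2) (F : ℕ → ℕ → ℝ) :
    bitP N k i * blk N (k + 1) n m F * bitP N k j = blk N k (2 * n + i) (2 * m + j) F := by
  ext x y
  simp only [bitP, mul_diagonal, diagonal_mul, blk_apply]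
  have hx : x.val / 2 ^ (k + 1) = x.val / 2 ^ k / 2 := by rw [pow_succ, Nat.div_div_eq_div_mul]
  have hy : y.val / 2 ^ (k + 1) = y.val / 2 ^ k / 2 := by rw [pow_succ, Nat.div_div_eq_div_mul]
  rw [hx, hy]
  generalize x.val / 2 ^ k = s
  generalize y.val / 2 ^ k = t
  split_ifs <;> first | omega | simp

lemma sum_range_two_mul (M : ℕ) (f : ℕ → ℝ) :
    ∑ n ∈ range (2 * M), f n = ∑ n ∈ range M, (f (2 * n + 0) + f (2 * n + 1)) := by
  induction M with
  | zero => simp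
  | succ M ih =>
    rw [show 2 * (M + 1) = 2 * M + 1 + 1 by ring, sum_range_succ, sum_range_succ, ih,
      sum_range_succ]
    simp only [add_zero]; ring

lemma xor00 (a b : ℕ) : (2 * a + 0) ^^^ (2 * b + 0) = 2 * (a ^^^ b) + 0 := by
  simpa [Nat.bit_val] using Nat.xor_bit false a false b
lemma xor01 (a b : ℕ) : (2 * a + 0) ^^^ (2 * b + 1) = 2 * (a ^^^ b) + 1 := by
  simpa [Nat.bit_val] using Nat.xor_bit false a true b
lemma xor10 (a b : ℕ) : (2 * a + 1) ^^^ (2 * b + 0) = 2 * (a ^^^ b) + 1 := by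
  simpa [Nat.bit_val] using Nat.xor_bit true a false b
lemma xor11 (a b : ℕ) : (2 * a + 1) ^^^ (2 * b + 1) = 2 * (a ^^^ b) + 0 := by
  simpa [Nat.bit_val] using Nat.xor_bit true a true b

/-- The Bellman function summed over one scale. -/
noncomputable def lev (N k m : ℕ) (F0 F1 F2 : ℕ → ℕ → ℝ) : ℝ :=
  ∑ n0 ∈ range (2 ^ m), ∑ n1 ∈ range (2 ^ m),
    bell (blk N k n0 n1 F0) (blk N k n1 (n0 ^^^ n1) F1) (blk N k (n0 ^^^ n1) n0 F2)

/-- The discrete Haar function of the block number `n` of length `2^(k+1)`. -/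
noncomputable def dh (k n x : ℕ) : ℝ :=
  if x / 2 ^ (k + 1) = n then (if x / 2 ^ k % 2 = 0 then 1 else -1) else 0

/-- The discrete triangular Haar term. -/
noncomputable def dT (N k n0 n1 n2 : ℕ) (F0 F1 F2 : ℕ → ℕ → ℝ) : ℝ :=
  ∑ x0 ∈ range N, ∑ x1 ∈ range N, ∑ x2 ∈ range N,
    F0 x0 x1 * F1 x1 x2 * F2 x2 x0 * (dh k n0 x0 * dh k n1 x1 * dh k n2 x2)

lemma dT_eq (N k n0 n1 n2 : ℕ) (F0 F1 F2 : ℕ → ℕ → ℝ) :
    dT N k n0 n1 n2 F0 F1 F2 = trace (hb N k * blk N (k + 1) n0 n1 F0 * hb N k *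
      blk N (k + 1) n1 n2 F1 * hb N k * blk N (k + 1) n2 n0 F2) := by
  simp only [dT, ← Fin.sum_univ_eq_sum_range
    (fun x0 => ∑ x1 ∈ range N, ∑ x2 ∈ range N,
      F0 x0 x1 * F1 x1 x2 * F2 x2 x0 * (dh k n0 x0 * dh k n1 x1 * dh k n2 x2))]
  simp only [trace, diag_apply, Matrix.mul_apply (N := blk N (k + 1) n2 n0 F2),
    Matrix.mul_apply (N := blk N (k + 1) n1 n2 F1), hb, mul_diagonal, diagonal_mul,
    Finset.sum_mul]
  refine Finset.sum_congr rfl fun x0 _ => ?_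
  rw [Finset.sum_comm, ← Fin.sum_univ_eq_sum_range
    (fun x2 => ∑ x1 ∈ range N,
      F0 x0 x1 * F1 x1 x2 * F2 x2 x0 * (dh k n0 x0 * dh k n1 x1 * dh k n2 x2))]
  refine Finset.sum_congr rfl fun x2 _ => ?_
  rw [← Fin.sum_univ_eq_sum_range
    (fun x1 => F0 x0 x1 * F1 x1 x2 * F2 x2 x0 * (dh k n0 x0 * dh k n1 x1 * dh k n2 x2))]
  refine Finset.sum_congr rfl fun x1 _ => ?_
  simp only [blk_apply, dh]
  split_ifs <;> ring

lemma lev_step (N k m : ℕ) (F0 F1 F2 : ℕ → ℕ → ℝ) :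
    ∑ n0 ∈ range (2 ^ m), ∑ n1 ∈ range (2 ^ m), |dT N k n0 n1 (n0 ^^^ n1) F0 F1 F2|
      ≤ 2 * √2 * (2 * lev N k (m + 1) F0 F1 F2 - lev N (k + 1) m F0 F1 F2) := by
  unfold lev
  rw [pow_succ' 2 m, sum_range_two_mul]
  simp only [sum_range_two_mul, xor00, xor01, xor10, xor11, ← Finset.sum_add_distrib,
    Finset.mul_sum, ← Finset.sum_sub_distrib]
  refine Finset.sum_le_sum fun n0 _ => Finset.sum_le_sum fun n1 _ => ?_
  have h := bell_step (blk N (k + 1) n0 n1 F0) (blk N (k + 1) n1 (n0 ^^^ n1) F1)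
    (blk N (k + 1) (n0 ^^^ n1) n0 F2) (split_bit N k) (split_bit N k) (split_bit N k)
  rw [← dT_eq] at h
  simp only [blk_child N k _ _ 0 0 (by norm_num) (by norm_num),
    blk_child N k _ _ 0 1 (by norm_num) (by norm_num),
    blk_child N k _ _ 1 0 (by norm_num) (by norm_num),
    blk_child N k _ _ 1 1 (by norm_num) (by norm_num)] at h
  refine le_trans h (le_of_eq ?_)
  ring

lemma phi_leaf (N n m : ℕ) (hn : n < N) (hm : m < N) (F : ℕ → ℕ → ℝ) :
    phi (blk N 0 n m F * (blk N 0 n m F)ᵀ) = |F n m| ^ 3 := by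
  have hS : PSD (diagonal fun x : Fin N => if x = ⟨n, hn⟩ then |F n m| else 0) :=
    psd_diagonal fun x => by split_ifs <;> simp
  rw [phi_eq hS]
  · simp only [diagonal_mul_diagonal, trace_diagonal]
    rw [Finset.sum_eq_single ⟨n, hn⟩]
    · simp only [if_true]; ring
    · intro x _ hx; simp [hx]
    · simp
  · ext x y
    rw [diagonal_mul_diagonal]
    simp only [diagonal_apply, Matrix.mul_apply, transpose_apply,
      blk_apply, pow_zero, Nat.div_one]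
    rw [Finset.sum_eq_single ⟨m, hm⟩]
    · by_cases hx : x = ⟨n, hn⟩
      · subst hx
        by_cases hy : (⟨n, hn⟩ : Fin N) = y
        · subst hy; simp
        · have : y.val ≠ n := fun h => hy (Fin.ext h.symm)
          simp [hy, this]
      · have : x.val ≠ n := fun h => hx (Fin.ext h)
        simp [hx, this]
    · intro z _ hz
      have : z.val ≠ m := fun h => hz (Fin.ext h)
      simp [this]
    · simp

lemma bell_leaf (N n0 n1 n2 : ℕ) (h0 : n0 < N) (h1 : n1 < N) (h2 : n2 < N)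
    (F0 F1 F2 : ℕ → ℕ → ℝ) :
    bell (blk N 0 n0 n1 F0) (blk N 0 n1 n2 F1) (blk N 0 n2 n0 F2)
      ≤ 2 * √2 * (|F0 n0 n1| ^ 3 + |F1 n1 n2| ^ 3 + |F2 n2 n0| ^ 3) := by
  unfold bell
  have a := phi_add_le (psd_gram' (blk N 0 n0 n1 F0)) (psd_gram (blk N 0 n2 n0 F2))
  have b := phi_add_le (psd_gram' (blk N 0 n1 n2 F1)) (psd_gram (blk N 0 n0 n1 F0))
  have c := phi_add_le (psd_gram' (blk N 0 n2 n0 F2)) (psd_gram (blk N 0 n1 n2 F1))
  simp only [← phi_gram_comm, phi_leaf N _ _ h0 h1, phi_leaf N _ _ h1 h2,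
    phi_leaf N _ _ h2 h0] at a b c
  linarith

lemma sum_xor (K n : ℕ) (hn : n < 2 ^ K) (f : ℕ → ℝ) :
    ∑ x ∈ range (2 ^ K), f (x ^^^ n) = ∑ x ∈ range (2 ^ K), f x := by
  refine Finset.sum_nbij' (fun x => x ^^^ n) (fun x => x ^^^ n) ?_ ?_ ?_ ?_ ?_
  · intro x hx
    simp only [mem_range] at hx ⊢
    exact Nat.xor_lt_two_pow hx hn
  · intro x hx
    simp only [mem_range] at hx ⊢
    exact Nat.xor_lt_two_pow hx hn
  · intro x _; simp
  · intro x _; simp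
  · intro x _; rfl

/-- Sum of cubes over the discrete square. -/
noncomputable def cub (N : ℕ) (F : ℕ → ℕ → ℝ) : ℝ :=
  ∑ x ∈ range N, ∑ y ∈ range N, |F x y| ^ 3

lemma lev_zero (K : ℕ) (F0 F1 F2 : ℕ → ℕ → ℝ) :
    lev (2 ^ K) 0 K F0 F1 F2 ≤ 2 * √2 * (cub (2 ^ K) F0 + cub (2 ^ K) F1 + cub (2 ^ K) F2) := by
  have e1 : cub (2 ^ K) F1 =
      ∑ n0 ∈ range (2 ^ K), ∑ n1 ∈ range (2 ^ K), |F1 n1 (n0 ^^^ n1)| ^ 3 := by
    rw [Finset.sum_comm]
    refine Finset.sum_congr rfl fun n1 h1 => ?_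
    exact (sum_xor K n1 (mem_range.1 h1) (fun y => |F1 n1 y| ^ 3)).symm
  have e2 : cub (2 ^ K) F2 =
      ∑ n0 ∈ range (2 ^ K), ∑ n1 ∈ range (2 ^ K), |F2 (n0 ^^^ n1) n0| ^ 3 := by
    rw [cub, Finset.sum_comm]
    refine Finset.sum_congr rfl fun n0 h0 => ?_
    rw [← sum_xor K n0 (mem_range.1 h0) (fun x => |F2 x n0| ^ 3)]
    simp only [Nat.xor_comm]
  rw [e1, e2, cub, lev]
  simp only [← Finset.sum_add_distrib, Finset.mul_sum]
  refine Finset.sum_le_sum fun n0 h0 => Finset.sum_le_sum fun n1 h1 => ?_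
  exact bell_leaf _ _ _ _ (mem_range.1 h0) (mem_range.1 h1)
    (Nat.xor_lt_two_pow (mem_range.1 h0) (mem_range.1 h1)) F0 F1 F2

lemma lev_nonneg (N k m : ℕ) (F0 F1 F2 : ℕ → ℕ → ℝ) : 0 ≤ lev N k m F0 F1 F2 :=
  Finset.sum_nonneg fun _ _ => Finset.sum_nonneg fun _ _ => bell_nonneg _ _ _

/-- The discrete theorem. -/
theorem discrete_bound (K : ℕ) (F0 F1 F2 : ℕ → ℕ → ℝ) :
    ∑ k ∈ range K, (1 / 2 : ℝ) ^ (k + 1) * ∑ n0 ∈ range (2 ^ (K - (k + 1))),
        ∑ n1 ∈ range (2 ^ (K - (k + 1))), |dT (2 ^ K) k n0 n1 (n0 ^^^ n1) F0 F1 F2|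
      ≤ 8 * (cub (2 ^ K) F0 + cub (2 ^ K) F1 + cub (2 ^ K) F2) := by
  set f : ℕ → ℝ := fun k => (1 / 2 : ℝ) ^ k * lev (2 ^ K) k (K - k) F0 F1 F2 with hf
  have s2 := sqrt_two_mul_self
  have s2p := sqrt_two_pos
  have step : ∀ k ∈ range K, (1 / 2 : ℝ) ^ (k + 1) * ∑ n0 ∈ range (2 ^ (K - (k + 1))),
        ∑ n1 ∈ range (2 ^ (K - (k + 1))), |dT (2 ^ K) k n0 n1 (n0 ^^^ n1) F0 F1 F2|
      ≤ 2 * √2 * (f k - f (k + 1)) := by
    intro k hk
    have hk' : K - k = K - (k + 1) + 1 := by have := mem_range.1 hk; omega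
    have h := lev_step (2 ^ K) k (K - (k + 1)) F0 F1 F2
    refine le_trans (mul_le_mul_of_nonneg_left h (by positivity)) (le_of_eq ?_)
    simp only [hf]
    rw [hk']
    ring
  refine le_trans (Finset.sum_le_sum step) ?_
  rw [← Finset.mul_sum, Finset.sum_range_sub']
  have h0 : f 0 ≤ 2 * √2 * (cub (2 ^ K) F0 + cub (2 ^ K) F1 + cub (2 ^ K) F2) := by
    simpa [hf] using lev_zero K F0 F1 F2
  have h1 : 0 ≤ f K := mul_nonneg (by positivity) (lev_nonneg _ _ _ _ _ _)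
  have h2 := mul_le_mul_of_nonneg_left (sub_le_self (f 0) h1 |>.trans h0)
    (by positivity : (0 : ℝ) ≤ 2 * √2)
  refine le_trans h2 (le_of_eq ?_)
  rw [← mul_assoc]
  congr 1
  linarith

end Vale.Agent.P075
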