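import Vale.Agent.P075.Main

/-! Passing from Borel to Lebesgue measurable functions. -/

namespace Vale.Agent.P075

open MeasureTheory Set

lemma Admissible.exists_borel {F : ℝ × ℝ → ℝ} (h : Admissible F) :
    ∃ G : ℝ × ℝ → ℝ, Adm0 G ∧ F =ᵐ[volume] G := by
  classical
  obtain ⟨h1, ⟨M, hM⟩, h3⟩ := h
  have hM0 : 0 ≤ M := (abs_nonneg _).trans (hM 0)
  have hK : MeasurableSet (tsupport F) := (isClosed_tsupport F).measurableSet
  refine ⟨(tsupport F).indicator fun p => max (-M) (min M (h1.mk F p)), ⟨?_, ⟨M, fun p => ?_⟩, ?_⟩,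
    ?_⟩
  · exact (measurable_const.max (measurable_const.min h1.measurable_mk)).indicator hK
  · rw [Set.indicator_apply]
    split_ifs
    · rw [abs_le]
      exact ⟨le_max_left _ _, max_le (by linarith) (min_le_left _ _)⟩
    · simpa using hM0
  · exact HasCompactSupport.of_support_subset_isCompact h3.isCompact
      (Set.support_indicator_subset)
  · filter_upwards [h1.ae_eq_mk] with p hp
    rw [Set.indicator_apply, ← hp]
    have := abs_le.1 (hM p)
    split_ifs with hh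
    · rw [min_eq_right this.2, max_eq_right this.1]
    · exact image_eq_zero_of_notMem_tsupport hh

lemma rot_preserving :
    MeasurePreserving (fun u : ℝ × ℝ × ℝ => (u.2.1, u.2.2, u.1)) volume volume := by
  have h1 : MeasurePreserving
      (MeasurableEquiv.prodComm : ℝ × (ℝ × ℝ) ≃ᵐ (ℝ × ℝ) × ℝ) volume volume :=
    Measure.measurePreserving_swap
  have h2 : MeasurePreserving
      (MeasurableEquiv.prodAssoc : (ℝ × ℝ) × ℝ ≃ᵐ ℝ × ℝ × ℝ) volume volume :=
    volume_preserving_prodAssoc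
  exact h1.trans h2

lemma Lform_congr {F0 F1 F2 G0 G1 G2 : ℝ × ℝ → ℝ} (h0 : F0 =ᵐ[volume] G0)
    (h1 : F1 =ᵐ[volume] G1) (h2 : F2 =ᵐ[volume] G2) (k : ℤ) (n0 n1 n2 : ℕ) :
    Lform k n0 n1 n2 F0 F1 F2 = Lform k n0 n1 n2 G0 G1 G2 := by
  have q1 : Measure.QuasiMeasurePreserving (fun u : ℝ × ℝ × ℝ => (u.2.1, u.2.2)) volume volume :=
    Measure.quasiMeasurePreserving_snd
  have q2 : Measure.QuasiMeasurePreserving (fun u : ℝ × ℝ × ℝ => (u.2.2, u.1)) volume volume :=
    q1.comp rot_preserving.quasiMeasurePreserving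
  have q0 : Measure.QuasiMeasurePreserving (fun u : ℝ × ℝ × ℝ => (u.1, u.2.1)) volume volume :=
    q2.comp rot_preserving.quasiMeasurePreserving
  unfold Lform
  congr 1
  refine integral_congr_ae (ae_restrict_of_ae ?_)
  filter_upwards [q0.ae_eq h0, q1.ae_eq h1, q2.ae_eq h2] with x a0 a1 a2
  simp only [Function.comp] at a0 a1 a2
  rw [a0, a1, a2]

lemma norm3_congr {F G : ℝ × ℝ → ℝ} (h : F =ᵐ[volume] G) : norm3 F = norm3 G := by
  unfold norm3
  rw [eLpNorm_congr_ae (ae_restrict_of_ae h)]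

theorem main_bound {F0 F1 F2 : ℝ × ℝ → ℝ} (h0 : Admissible F0) (h1 : Admissible F1)
    (h2 : Admissible F2) :
    (∀ k : ℤ, (Function.support fun n : XorTriple =>
      Lform k n.1.1 n.1.2.1 n.1.2.2 F0 F1 F2).Finite) ∧
    ∀ (S : Finset ℤ) (ε : ℤ → ℝ), (∀ k, |ε k| ≤ 1) →
      |Lam S ε F0 F1 F2| ≤ 24 * (norm3 F0 * norm3 F1 * norm3 F2) := by
  obtain ⟨G0, g0, e0⟩ := h0.exists_borel
  obtain ⟨G1, g1, e1⟩ := h1.exists_borel
  obtain ⟨G2, g2, e2⟩ := h2.exists_borel
  refine ⟨fun k => ?_, fun S ε hε => ?_⟩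
  · simp only [Lform_congr e0 e1 e2]
    exact finite_support g0 g1 g2 k
  · have := Lam_bound g0 g1 g2 S ε hε
    unfold Lam at this ⊢
    simp only [Lform_congr e0 e1 e2, norm3_congr e0, norm3_congr e1, norm3_congr e2]
    exact this

end Vale.Agent.P075
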