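import Vale.Agent.P075.Sample

/-! The uniform bound for the dyadic triangular Hilbert form. -/

namespace Vale.Agent.P075

open MeasureTheory Set Finset

/-- Bounded, compactly supported, Borel measurable real functions. -/
def Adm0 (F : ℝ × ℝ → ℝ) : Prop :=
  Measurable F ∧ (∃ M : ℝ, ∀ p, |F p| ≤ M) ∧ HasCompactSupport F

/-- The integral of `|F|^3` over the quadrant. -/
noncomputable def cube3 (F : ℝ × ℝ → ℝ) : ℝ := ∫ p in Set.Ici (0 : ℝ) ×ˢ Set.Ici (0 : ℝ), |F p| ^ 3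

lemma Adm0.bm {F : ℝ × ℝ → ℝ} (h : Adm0 F) : BM F := ⟨h.1, h.2.1⟩

lemma Adm0.memLp {F : ℝ × ℝ → ℝ} (h : Adm0 F) : MemLp F 3 volume := by
  obtain ⟨h1, ⟨M, hM⟩, h3⟩ := h
  exact h3.memLp_of_bound h1.aestronglyMeasurable M (Filter.Eventually.of_forall hM)

lemma Adm0.integrable_cube {F : ℝ × ℝ → ℝ} (h : Adm0 F) :
    Integrable (fun p => |F p| ^ 3) := by
  have := h.memLp.integrable_norm_pow (p := 3) (by norm_num)
  simpa using this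

lemma Adm0.cube3_eq {F : ℝ × ℝ → ℝ} (h : Adm0 F) : cube3 F = norm3 F ^ 3 := by
  have hm : MemLp F 3 (volume.restrict (Set.Ici (0 : ℝ) ×ˢ Set.Ici (0 : ℝ))) := h.memLp.restrict _
  have h0 : 0 ≤ cube3 F := integral_nonneg fun p => by positivity
  unfold norm3
  rw [hm.eLpNorm_eq_integral_rpow_norm (by norm_num) (by norm_num)]
  have e : (∫ p in Set.Ici (0 : ℝ) ×ˢ Set.Ici (0 : ℝ), ‖F p‖ ^ (3 : ENNReal).toReal) = cube3 F := by
    unfold cube3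
    congr 1
    funext p
    rw [Real.norm_eq_abs, show (3 : ENNReal).toReal = ((3 : ℕ) : ℝ) by norm_num, Real.rpow_natCast]
  rw [e, ENNReal.toReal_ofReal (by positivity), show (3 : ENNReal).toReal = ((3 : ℕ) : ℝ) by
    norm_num, Real.rpow_inv_natCast_pow h0 (by norm_num)]

lemma Adm0.vanish {F : ℝ × ℝ → ℝ} (h : Adm0 F) :
    ∃ R : ℝ, ∀ p : ℝ × ℝ, R ≤ p.1 → F p = 0 := by
  obtain ⟨R, hR⟩ := h.2.2.isCompact.isBounded.exists_norm_le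
  refine ⟨R + 1, fun p hp => ?_⟩
  by_contra hne
  have h1 := hR p (subset_tsupport _ hne)
  have h2 : p.1 ≤ ‖p‖ := (le_abs_self _).trans (norm_fst_le p)
  linarith

lemma int_cub {d : ℝ} (hd : 0 < d) (N : ℕ) {F : ℝ × ℝ → ℝ} (h : Adm0 F) :
    ∫ p : ℝ × ℝ, chi d p.1 * chi d p.2 * cub N (smp d F p.1 p.2) ≤ cube3 F := by
  have := rightInv2
  set T : ℕ → ℕ → ℝ × ℝ → ℝ := fun m0 m1 u =>
    chi d u.1 * chi d u.2 * |F (u + (d * m0, d * m1))| ^ 3 with hT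
  have iT : ∀ m0 m1, Integrable (T m0 m1) := fun m0 m1 =>
    (h.bm.comp (by fun_prop)).cube.integrable_mul (integrable_w2 d)
  have iS : ∀ m0 m1 : ℕ, Integrable fun x : ℝ × ℝ => T m0 m1 (x - (d * m0, d * m1)) :=
    fun m0 m1 => (iT m0 m1).comp_sub_right _
  have pt2 : ∀ u : ℝ × ℝ, chi d u.1 * chi d u.2 * cub N (smp d F u.1 u.2) =
      ∑ m0 ∈ range N, ∑ m1 ∈ range N, T m0 m1 u := by
    intro u
    simp only [cub, Finset.mul_sum, hT, smp]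
    rfl
  have e : ∫ p : ℝ × ℝ, chi d p.1 * chi d p.2 * cub N (smp d F p.1 p.2) =
      ∫ x : ℝ × ℝ, ∑ m0 ∈ range N, ∑ m1 ∈ range N, T m0 m1 (x - (d * m0, d * m1)) := by
    simp only [pt2]
    rw [integral_finsetSum _ fun m0 _ => integrable_finsetSum _ fun m1 _ => iS m0 m1,
      integral_finsetSum _ fun m0 _ => integrable_finsetSum _ fun m1 _ => iT m0 m1]
    refine Finset.sum_congr rfl fun m0 _ => ?_
    rw [integral_finsetSum _ fun m1 _ => iS m0 m1, integral_finsetSum _ fun m1 _ => iT m0 m1]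
    refine Finset.sum_congr rfl fun m1 _ => ?_
    exact (integral_sub_right_eq_self _ _).symm
  have hq : MeasurableSet (Set.Ici (0 : ℝ) ×ˢ Set.Ici (0 : ℝ)) :=
    measurableSet_Ici.prod measurableSet_Ici
  rw [e, cube3, ← integral_indicator hq]
  refine integral_mono (integrable_finsetSum _ fun m0 _ =>
    integrable_finsetSum _ fun m1 _ => iS m0 m1) (h.integrable_cube.indicator hq) fun x => ?_
  have e2 : ∑ m0 ∈ range N, ∑ m1 ∈ range N, T m0 m1 (x - (d * m0, d * m1)) =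
      (∑ m0 ∈ range N, chi d (x.1 - d * m0) * 1) * (∑ m1 ∈ range N, chi d (x.2 - d * m1) * 1)
        * |F x| ^ 3 := by
    rw [Finset.sum_mul_sum]
    simp only [hT, sub_add_cancel, Finset.sum_mul, mul_one, Prod.fst_sub, Prod.snd_sub]
  simp only [e2, sum_chi hd, Set.indicator_apply, Set.mem_prod, Set.mem_Ici]
  have h3 : 0 ≤ |F x| ^ 3 := by positivity
  split_ifs with a b c <;> first | (exfalso; tauto) | simp [h3]

lemma int_rot (f : ℝ × ℝ × ℝ → ℝ) :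
    ∫ u : ℝ × ℝ × ℝ, f (u.2.1, u.2.2, u.1) = ∫ u, f u := by
  have h1 : MeasurePreserving
      (MeasurableEquiv.prodComm : ℝ × (ℝ × ℝ) ≃ᵐ (ℝ × ℝ) × ℝ) volume volume :=
    Measure.measurePreserving_swap
  have h2 : MeasurePreserving
      (MeasurableEquiv.prodAssoc : (ℝ × ℝ) × ℝ ≃ᵐ ℝ × ℝ × ℝ) volume volume :=
    volume_preserving_prodAssoc
  exact (h1.trans h2).integral_comp' f

lemma int_w3_a {d : ℝ} (hd : 0 < d) (g : ℝ × ℝ → ℝ) :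
    ∫ u : ℝ × ℝ × ℝ, w3 d u * g (u.2.1, u.2.2) = d * ∫ p : ℝ × ℝ, chi d p.1 * chi d p.2 * g p := by
  have := integral_prod_mul (μ := (volume : Measure ℝ)) (ν := (volume : Measure (ℝ × ℝ)))
    (chi d) (fun p : ℝ × ℝ => chi d p.1 * chi d p.2 * g p)
  rw [integral_chi hd] at this
  rw [← this]
  simp only [w3, mul_assoc]
  rfl

lemma int_w3_b {d : ℝ} (hd : 0 < d) (g : ℝ × ℝ → ℝ) :
    ∫ u : ℝ × ℝ × ℝ, w3 d u * g (u.2.2, u.1) = d * ∫ p : ℝ × ℝ, chi d p.1 * chi d p.2 * g p := by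
  rw [← int_w3_a hd, ← int_rot (fun u => w3 d u * g (u.2.1, u.2.2))]
  congr 1
  funext u
  simp only [w3]; ring

lemma int_w3_c {d : ℝ} (hd : 0 < d) (g : ℝ × ℝ → ℝ) :
    ∫ u : ℝ × ℝ × ℝ, w3 d u * g (u.1, u.2.1) = d * ∫ p : ℝ × ℝ, chi d p.1 * chi d p.2 * g p := by
  rw [← int_w3_b hd, ← int_rot (fun u => w3 d u * g (u.2.2, u.1))]
  congr 1
  funext u
  simp only [w3]; ring

lemma discrete_scaled (K : ℕ) (F0 F1 F2 : ℕ → ℕ → ℝ) {t0 t1 t2 : ℝ} (h0 : 0 ≤ t0) (h1 : 0 ≤ t1)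
    (h2 : 0 ≤ t2) :
    t0 * t1 * t2 * ∑ k ∈ range K, (1 / 2 : ℝ) ^ (k + 1) * ∑ n0 ∈ range (2 ^ (K - (k + 1))),
        ∑ n1 ∈ range (2 ^ (K - (k + 1))), |dT (2 ^ K) k n0 n1 (n0 ^^^ n1) F0 F1 F2|
      ≤ 8 * (t0 ^ 3 * cub (2 ^ K) F0 + t1 ^ 3 * cub (2 ^ K) F1 + t2 ^ 3 * cub (2 ^ K) F2) := by
  have h := discrete_bound K (fun x y => t0 * F0 x y) (fun x y => t1 * F1 x y)
    (fun x y => t2 * F2 x y)
  have c : ∀ (t : ℝ) (F : ℕ → ℕ → ℝ), 0 ≤ t →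
      cub (2 ^ K) (fun x y => t * F x y) = t ^ 3 * cub (2 ^ K) F := by
    intro t F ht
    simp only [cub, abs_mul, abs_of_nonneg ht, mul_pow, Finset.mul_sum]
  have e : ∀ k n0 n1 n2, |dT (2 ^ K) k n0 n1 n2 (fun x y => t0 * F0 x y) (fun x y => t1 * F1 x y)
      (fun x y => t2 * F2 x y)| = t0 * t1 * t2 * |dT (2 ^ K) k n0 n1 n2 F0 F1 F2| := by
    intro k n0 n1 n2
    rw [← abs_of_nonneg (by positivity : 0 ≤ t0 * t1 * t2), ← abs_mul]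
    congr 1
    simp only [dT, Finset.mul_sum]
    refine Finset.sum_congr rfl fun _ _ => Finset.sum_congr rfl fun _ _ =>
      Finset.sum_congr rfl fun _ _ => by ring
  rw [c t0 F0 h0, c t1 F1 h1, c t2 F2 h2] at h
  refine le_trans (le_of_eq ?_) h
  simp only [e, ← Finset.mul_sum]
  rw [Finset.mul_sum]
  exact Finset.sum_congr rfl fun _ _ => by ring

lemma sum_Lform_le (k0 : ℤ) (K : ℕ) {F0 F1 F2 : ℝ × ℝ → ℝ} (h0 : Adm0 F0)
    (h1 : Adm0 F1) (h2 : Adm0 F2)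
    (z0 : ∀ p : ℝ × ℝ, (2 : ℝ) ^ k0 * (2 ^ K : ℕ) ≤ p.1 → F0 p = 0)
    (z1 : ∀ p : ℝ × ℝ, (2 : ℝ) ^ k0 * (2 ^ K : ℕ) ≤ p.1 → F1 p = 0)
    (z2 : ∀ p : ℝ × ℝ, (2 : ℝ) ^ k0 * (2 ^ K : ℕ) ≤ p.1 → F2 p = 0)
    {t0 t1 t2 : ℝ} (a0 : 0 ≤ t0) (a1 : 0 ≤ t1) (a2 : 0 ≤ t2) :
    t0 * t1 * t2 * ∑ j ∈ range K, ∑ n0 ∈ range (2 ^ (K - (j + 1))),
        ∑ n1 ∈ range (2 ^ (K - (j + 1))), |Lform (k0 + (j + 1 : ℕ)) n0 n1 (n0 ^^^ n1) F0 F1 F2|
      ≤ 8 * (t0 ^ 3 * cube3 F0 + t1 ^ 3 * cube3 F1 + t2 ^ 3 * cube3 F2) := by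
  have hd : (0 : ℝ) < 2 ^ k0 := by positivity
  set d : ℝ := 2 ^ k0 with hdd
  set D : ℕ → ℕ → ℕ → ℝ × ℝ × ℝ → ℝ := fun j n0 n1 u =>
    |dT (2 ^ K) j n0 n1 (n0 ^^^ n1) (smp d F0 u.1 u.2.1) (smp d F1 u.2.1 u.2.2)
      (smp d F2 u.2.2 u.1)| with hD
  have bD : ∀ j n0 n1, BM (D j n0 n1) := fun j n0 n1 =>
    (bm_dT d _ j n0 n1 _ h0.bm h1.bm h2.bm).abs
  have iD : ∀ j n0 n1, Integrable fun u => w3 d u * D j n0 n1 u := fun j n0 n1 =>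
    (bD j n0 n1).integrable_mul (integrable_w3 d)
  have s1 : ∀ j n0 n1, |Lform (k0 + (j + 1 : ℕ)) n0 n1 (n0 ^^^ n1) F0 F1 F2| ≤
      d⁻¹ * (1 / 2) ^ (j + 1) * ∫ u, w3 d u * D j n0 n1 u := by
    intro j n0 n1
    rw [Lform_eq k0 j n0 n1 _ (2 ^ K) h0.bm h1.bm h2.bm z0 z1 z2, abs_mul,
      abs_of_nonneg (by positivity : 0 ≤ ((2 : ℝ) ^ k0)⁻¹ * (1 / 2) ^ (j + 1))]
    refine mul_le_mul_of_nonneg_left ?_ (by positivity)
    refine (abs_integral_le_integral_abs).trans (le_of_eq ?_)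
    congr 1
    funext u
    rw [abs_mul, abs_of_nonneg (w3_nonneg _ _)]
  set Tot : ℝ × ℝ × ℝ → ℝ := fun u => ∑ j ∈ range K, (1 / 2 : ℝ) ^ (j + 1) *
    ∑ n0 ∈ range (2 ^ (K - (j + 1))), ∑ n1 ∈ range (2 ^ (K - (j + 1))), D j n0 n1 u with hTot
  have bTot : BM Tot := BM.sum _ fun j _ => (BM.const _).mul
    (BM.sum _ fun n0 _ => BM.sum _ fun n1 _ => bD j n0 n1)
  have s2 : ∑ j ∈ range K, ∑ n0 ∈ range (2 ^ (K - (j + 1))),
        ∑ n1 ∈ range (2 ^ (K - (j + 1))), d⁻¹ * (1 / 2) ^ (j + 1) * ∫ u, w3 d u * D j n0 n1 u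
      = d⁻¹ * ∫ u, w3 d u * Tot u := by
    have : ∀ u, w3 d u * Tot u = ∑ j ∈ range K, ∑ n0 ∈ range (2 ^ (K - (j + 1))),
        ∑ n1 ∈ range (2 ^ (K - (j + 1))), (1 / 2) ^ (j + 1) * (w3 d u * D j n0 n1 u) := by
      intro u
      simp only [hTot, Finset.mul_sum]
      refine Finset.sum_congr rfl fun _ _ => Finset.sum_congr rfl fun _ _ =>
        Finset.sum_congr rfl fun _ _ => by ring
    simp only [this]
    rw [integral_finsetSum _ fun j _ => integrable_finsetSum _ fun n0 _ =>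
      integrable_finsetSum _ fun n1 _ => (iD j n0 n1).const_mul _, Finset.mul_sum]
    refine Finset.sum_congr rfl fun j _ => ?_
    rw [integral_finsetSum _ fun n0 _ =>
      integrable_finsetSum _ fun n1 _ => (iD j n0 n1).const_mul _, Finset.mul_sum]
    refine Finset.sum_congr rfl fun n0 _ => ?_
    rw [integral_finsetSum _ fun n1 _ => (iD j n0 n1).const_mul _, Finset.mul_sum]
    refine Finset.sum_congr rfl fun n1 _ => ?_
    rw [integral_const_mul]; ring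
  have i0 : Integrable fun u : ℝ × ℝ × ℝ => w3 d u * cub (2 ^ K) (smp d F0 u.1 u.2.1) :=
    ((bm_cub d _ h0.bm).comp (f := fun u : ℝ × ℝ × ℝ => (u.1, u.2.1))
      (by fun_prop)).integrable_mul (integrable_w3 d)
  have i1 : Integrable fun u : ℝ × ℝ × ℝ => w3 d u * cub (2 ^ K) (smp d F1 u.2.1 u.2.2) :=
    ((bm_cub d _ h1.bm).comp (f := fun u : ℝ × ℝ × ℝ => (u.2.1, u.2.2))
      (by fun_prop)).integrable_mul (integrable_w3 d)
  have i2 : Integrable fun u : ℝ × ℝ × ℝ => w3 d u * cub (2 ^ K) (smp d F2 u.2.2 u.1) :=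
    ((bm_cub d _ h2.bm).comp (f := fun u : ℝ × ℝ × ℝ => (u.2.2, u.1))
      (by fun_prop)).integrable_mul (integrable_w3 d)
  have s3 : t0 * t1 * t2 * ∫ u, w3 d u * Tot u ≤
      8 * (t0 ^ 3 * (∫ u : ℝ × ℝ × ℝ, w3 d u * cub (2 ^ K) (smp d F0 u.1 u.2.1))
        + t1 ^ 3 * (∫ u : ℝ × ℝ × ℝ, w3 d u * cub (2 ^ K) (smp d F1 u.2.1 u.2.2))
        + t2 ^ 3 * (∫ u : ℝ × ℝ × ℝ, w3 d u * cub (2 ^ K) (smp d F2 u.2.2 u.1))) := by
    rw [← integral_const_mul, ← integral_const_mul, ← integral_const_mul, ← integral_const_mul,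
      ← integral_add (i0.const_mul _) (i1.const_mul _),
      ← integral_add (by exact (i0.const_mul _).add (i1.const_mul _)) (i2.const_mul _),
      ← integral_const_mul]
    refine integral_mono ((bTot.integrable_mul (integrable_w3 d)).const_mul _)
      ((((i0.const_mul _).add (i1.const_mul _)).add (i2.const_mul _)).const_mul _) fun u => ?_
    have := mul_le_mul_of_nonneg_left (discrete_scaled K (smp d F0 u.1 u.2.1)
      (smp d F1 u.2.1 u.2.2) (smp d F2 u.2.2 u.1) a0 a1 a2) (w3_nonneg d u)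
    simp only [hTot, hD]
    linarith
  rw [int_w3_c hd (fun p => cub (2 ^ K) (smp d F0 p.1 p.2)),
    int_w3_a hd (fun p => cub (2 ^ K) (smp d F1 p.1 p.2)),
    int_w3_b hd (fun p => cub (2 ^ K) (smp d F2 p.1 p.2))] at s3
  have c0 := mul_le_mul_of_nonneg_left (int_cub hd (2 ^ K) h0) (by positivity : 0 ≤ t0 ^ 3)
  have c1 := mul_le_mul_of_nonneg_left (int_cub hd (2 ^ K) h1) (by positivity : 0 ≤ t1 ^ 3)
  have c2 := mul_le_mul_of_nonneg_left (int_cub hd (2 ^ K) h2) (by positivity : 0 ≤ t2 ^ 3)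
  have s4 : ∑ j ∈ range K, ∑ n0 ∈ range (2 ^ (K - (j + 1))),
        ∑ n1 ∈ range (2 ^ (K - (j + 1))), |Lform (k0 + (j + 1 : ℕ)) n0 n1 (n0 ^^^ n1) F0 F1 F2|
      ≤ d⁻¹ * ∫ u, w3 d u * Tot u := by
    rw [← s2]
    exact Finset.sum_le_sum fun j _ => Finset.sum_le_sum fun n0 _ =>
      Finset.sum_le_sum fun n1 _ => s1 j n0 n1
  refine (mul_le_mul_of_nonneg_left s4 (by positivity)).trans ?_
  have s5 := mul_le_mul_of_nonneg_left s3 (inv_pos.2 hd).le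
  have hdi : d⁻¹ * d = 1 := inv_mul_cancel₀ hd.ne'
  generalize (∫ p : ℝ × ℝ, chi d p.1 * chi d p.2 * cub (2 ^ K) (smp d F0 p.1 p.2)) = I0 at *
  generalize (∫ p : ℝ × ℝ, chi d p.1 * chi d p.2 * cub (2 ^ K) (smp d F1 p.1 p.2)) = I1 at *
  generalize (∫ p : ℝ × ℝ, chi d p.1 * chi d p.2 * cub (2 ^ K) (smp d F2 p.1 p.2)) = I2 at *
  have e : d⁻¹ * (8 * (t0 ^ 3 * (d * I0) + t1 ^ 3 * (d * I1) + t2 ^ 3 * (d * I2))) =
      8 * (t0 ^ 3 * I0 + t1 ^ 3 * I1 + t2 ^ 3 * I2) := by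
    field_simp
  rw [e] at s5
  linarith

lemma amgm_limit {x a b c : ℝ} (ha : 0 ≤ a) (hb : 0 ≤ b) (hc : 0 ≤ c)
    (h : ∀ t0 t1 t2 : ℝ, 0 ≤ t0 → 0 ≤ t1 → 0 ≤ t2 →
      t0 * t1 * t2 * x ≤ 8 * (t0 ^ 3 * a ^ 3 + t1 ^ 3 * b ^ 3 + t2 ^ 3 * c ^ 3)) :
    x ≤ 24 * (a * b * c) := by
  have key : ∀ e : ℝ, 0 < e → x ≤ 24 * ((a + e) * (b + e) * (c + e)) := by
    intro e he
    have one : ∀ s : ℝ, 0 ≤ s → (s + e)⁻¹ ^ 3 * s ^ 3 ≤ 1 := by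
      intro s hs
      rw [← mul_pow]
      refine pow_le_one₀ (by positivity) ?_
      rw [inv_mul_le_iff₀ (by positivity)]
      linarith
    have h1 := h (a + e)⁻¹ (b + e)⁻¹ (c + e)⁻¹ (by positivity) (by positivity) (by positivity)
    have h2 : (a + e)⁻¹ * (b + e)⁻¹ * (c + e)⁻¹ * x ≤ 24 := by
      linarith [one a ha, one b hb, one c hc]
    rw [← mul_inv, ← mul_inv, inv_mul_le_iff₀ (by positivity)] at h2
    linarith
  have hc' : Filter.Tendsto (fun e : ℝ => 24 * ((a + e) * (b + e) * (c + e)))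
      (nhdsWithin 0 (Set.Ioi 0)) (nhds (24 * (a * b * c))) := by
    have : Continuous fun e : ℝ => 24 * ((a + e) * (b + e) * (c + e)) := by fun_prop
    have h3 := (this.tendsto 0).mono_left (nhdsWithin_le_nhds (s := Set.Ioi 0))
    simpa using h3
  exact ge_of_tendsto hc' (eventually_nhdsWithin_of_forall fun e he => key e he)

lemma dT_zero (K j n0 n1 n2 : ℕ) (hj : j < K) (F0 F1 F2 : ℕ → ℕ → ℝ)
    (h : ¬ (n0 < 2 ^ (K - (j + 1)) ∧ n1 < 2 ^ (K - (j + 1)))) :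
    dT (2 ^ K) j n0 n1 n2 F0 F1 F2 = 0 := by
  have z : ∀ n x, ¬ n < 2 ^ (K - (j + 1)) → x < 2 ^ K → dh j n x = 0 := by
    intro n x hn hx
    unfold dh
    rw [if_neg]
    intro e
    apply hn
    rw [← e, Nat.div_lt_iff_lt_mul (by positivity), ← pow_add]
    rwa [show K - (j + 1) + (j + 1) = K by omega]
  unfold dT
  refine Finset.sum_eq_zero fun x0 h0 => Finset.sum_eq_zero fun x1 h1 =>
    Finset.sum_eq_zero fun x2 _ => ?_
  rcases not_and_or.1 h with h | h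
  · rw [z n0 x0 h (Finset.mem_range.1 h0)]; ring
  · rw [z n1 x1 h (Finset.mem_range.1 h1)]; ring

/-- Pairs of indices parametrize the XOR triples. -/
def pairEquiv : ℕ × ℕ ≃ XorTriple where
  toFun p := ⟨(p.1, p.2, p.1 ^^^ p.2), by simp⟩
  invFun n := (n.1.1, n.1.2.1)
  left_inv _ := rfl
  right_inv n := by
    obtain ⟨⟨a, b, c⟩, h⟩ := n
    have : a ^^^ b = c := Nat.xor_eq_zero_iff.1 h
    subst this
    rfl

lemma exists_scale (k0 : ℤ) (B : ℕ) {F0 F1 F2 : ℝ × ℝ → ℝ} (h0 : Adm0 F0)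
    (h1 : Adm0 F1) (h2 : Adm0 F2) : ∃ K : ℕ, B ≤ K ∧
    (∀ p : ℝ × ℝ, (2 : ℝ) ^ k0 * (2 ^ K : ℕ) ≤ p.1 → F0 p = 0) ∧
    (∀ p : ℝ × ℝ, (2 : ℝ) ^ k0 * (2 ^ K : ℕ) ≤ p.1 → F1 p = 0) ∧
    (∀ p : ℝ × ℝ, (2 : ℝ) ^ k0 * (2 ^ K : ℕ) ≤ p.1 → F2 p = 0) := by
  obtain ⟨R0, z0⟩ := h0.vanish
  obtain ⟨R1, z1⟩ := h1.vanish
  obtain ⟨R2, z2⟩ := h2.vanish
  have hd : (0 : ℝ) < 2 ^ k0 := by positivity
  obtain ⟨M, hM⟩ := exists_nat_ge (max R0 (max R1 R2) / 2 ^ k0)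
  have hK : max R0 (max R1 R2) ≤ (2 : ℝ) ^ k0 * (2 ^ (M + B) : ℕ) := by
    rw [div_le_iff₀ hd] at hM
    have : (M : ℝ) ≤ (2 ^ (M + B) : ℕ) := by
      have := Nat.lt_two_pow_self (n := M + B)
      exact_mod_cast (by omega : M ≤ 2 ^ (M + B))
    nlinarith
  refine ⟨M + B, by omega, fun p hp => z0 p ?_, fun p hp => z1 p ?_, fun p hp => z2 p ?_⟩
  · exact (le_max_left _ _).trans (hK.trans hp)
  · exact ((le_max_left _ _).trans (le_max_right _ _)).trans (hK.trans hp)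
  · exact ((le_max_right _ _).trans (le_max_right _ _)).trans (hK.trans hp)

lemma Lform_zero (k0 : ℤ) (K j : ℕ) (hj : j < K) {F0 F1 F2 : ℝ × ℝ → ℝ} (h0 : Adm0 F0)
    (h1 : Adm0 F1) (h2 : Adm0 F2)
    (z0 : ∀ p : ℝ × ℝ, (2 : ℝ) ^ k0 * (2 ^ K : ℕ) ≤ p.1 → F0 p = 0)
    (z1 : ∀ p : ℝ × ℝ, (2 : ℝ) ^ k0 * (2 ^ K : ℕ) ≤ p.1 → F1 p = 0)
    (z2 : ∀ p : ℝ × ℝ, (2 : ℝ) ^ k0 * (2 ^ K : ℕ) ≤ p.1 → F2 p = 0) (p : ℕ × ℕ)
    (hp : p ∉ range (2 ^ (K - (j + 1))) ×ˢ range (2 ^ (K - (j + 1)))) :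
    Lform (k0 + (j + 1 : ℕ)) p.1 p.2 (p.1 ^^^ p.2) F0 F1 F2 = 0 := by
  rw [Lform_eq k0 j _ _ _ (2 ^ K) h0.bm h1.bm h2.bm z0 z1 z2]
  simp only [Finset.mem_product, Finset.mem_range] at hp
  simp only [dT_zero K j _ _ _ hj _ _ _ hp, mul_zero, integral_zero]

theorem finite_support {F0 F1 F2 : ℝ × ℝ → ℝ} (h0 : Adm0 F0) (h1 : Adm0 F1)
    (h2 : Adm0 F2) (k : ℤ) :
    (Function.support fun n : XorTriple => Lform k n.1.1 n.1.2.1 n.1.2.2 F0 F1 F2).Finite := by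
  obtain ⟨K, hK, z0, z1, z2⟩ := exists_scale (k - 1) 1 h0 h1 h2
  refine ((range (2 ^ (K - (0 + 1))) ×ˢ range (2 ^ (K - (0 + 1)))).finite_toSet.image
    pairEquiv).subset fun n hn => ?_
  obtain ⟨p, rfl⟩ := pairEquiv.surjective n
  refine ⟨p, ?_, rfl⟩
  by_contra hp
  have := Lform_zero (k - 1) K 0 hK h0 h1 h2 z0 z1 z2 p hp
  rw [show k - 1 + ((0 + 1 : ℕ) : ℤ) = k by push_cast; ring] at this
  exact hn this

theorem abs_sum_bound {F0 F1 F2 : ℝ × ℝ → ℝ} (h0 : Adm0 F0) (h1 : Adm0 F1)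
    (h2 : Adm0 F2) (S : Finset ℤ) :
    ∑ k ∈ S, ∑' n : XorTriple, |Lform k n.1.1 n.1.2.1 n.1.2.2 F0 F1 F2|
      ≤ 24 * (norm3 F0 * norm3 F1 * norm3 F2) := by
  obtain ⟨lo, hlo⟩ := S.bddBelow
  obtain ⟨hi, hhi⟩ := S.bddAbove
  obtain ⟨K, hK, z0, z1, z2⟩ := exists_scale (lo - 1) (hi - lo + 1).toNat h0 h1 h2
  have hsub : S ⊆ (range K).image fun j : ℕ => lo - 1 + ((j + 1 : ℕ) : ℤ) := by
    intro k hk
    have a := hlo hk
    have b := hhi hk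
    refine Finset.mem_image.2 ⟨(k - lo).toNat, Finset.mem_range.2 (by omega), by omega⟩
  have e : ∀ j ∈ range K, ∑' n : XorTriple,
      |Lform (lo - 1 + ((j + 1 : ℕ) : ℤ)) n.1.1 n.1.2.1 n.1.2.2 F0 F1 F2| =
      ∑ n0 ∈ range (2 ^ (K - (j + 1))), ∑ n1 ∈ range (2 ^ (K - (j + 1))),
        |Lform (lo - 1 + ((j + 1 : ℕ) : ℤ)) n0 n1 (n0 ^^^ n1) F0 F1 F2| := by
    intro j hj
    rw [← pairEquiv.tsum_eq, tsum_eq_sum
      (s := range (2 ^ (K - (j + 1))) ×ˢ range (2 ^ (K - (j + 1)))), Finset.sum_product]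
    · rfl
    · intro p hp
      exact abs_eq_zero.2 (Lform_zero (lo - 1) K j (Finset.mem_range.1 hj) h0 h1 h2 z0 z1 z2 p hp)
  refine (Finset.sum_le_sum_of_subset_of_nonneg hsub fun k _ _ =>
    tsum_nonneg fun n => abs_nonneg _).trans ?_
  rw [Finset.sum_image (by intro a _ b _ h; simp only at h; omega), Finset.sum_congr rfl e]
  refine amgm_limit ENNReal.toReal_nonneg ENNReal.toReal_nonneg ENNReal.toReal_nonneg
    fun t0 t1 t2 a0 a1 a2 => ?_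
  have := sum_Lform_le (lo - 1) K h0 h1 h2 z0 z1 z2 a0 a1 a2
  rwa [h0.cube3_eq, h1.cube3_eq, h2.cube3_eq] at this

theorem Lam_bound {F0 F1 F2 : ℝ × ℝ → ℝ} (h0 : Adm0 F0) (h1 : Adm0 F1)
    (h2 : Adm0 F2) (S : Finset ℤ) (ε : ℤ → ℝ) (hε : ∀ k, |ε k| ≤ 1) :
    |Lam S ε F0 F1 F2| ≤ 24 * (norm3 F0 * norm3 F1 * norm3 F2) := by
  refine le_trans ?_ (abs_sum_bound h0 h1 h2 S)
  unfold Lam
  refine (Finset.abs_sum_le_sum_abs _ _).trans (Finset.sum_le_sum fun k _ => ?_)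
  rw [abs_mul]
  refine (mul_le_of_le_one_left (abs_nonneg _) (hε k)).trans ?_
  have hs : Summable fun n : XorTriple => Lform k n.1.1 n.1.2.1 n.1.2.2 F0 F1 F2 :=
    summable_of_hasFiniteSupport (finite_support h0 h1 h2 k)
  simpa only [Real.norm_eq_abs] using norm_tsum_le_tsum_norm hs.norm

end Vale.Agent.P075
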