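import Vale.Agent.P075.Discrete
import Vale.Agent.P075.Defs

/-! Reduction of the continuous form to the discrete one by sampling. -/

namespace Vale.Agent.P075

open MeasureTheory Set Finset

/-- Indicator of `[0, d)`. -/
noncomputable def chi (d t : ℝ) : ℝ := (Set.Ico (0 : ℝ) d).indicator (fun _ => (1 : ℝ)) t

lemma chi_nonneg (d t : ℝ) : 0 ≤ chi d t := by
  unfold chi; exact Set.indicator_nonneg (fun _ _ => zero_le_one) _

lemma integrable_chi (d : ℝ) : Integrable (chi d) := by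
  unfold chi
  exact (integrable_indicator_iff measurableSet_Ico).2 (integrableOn_const (by simp))

lemma integral_chi {d : ℝ} (hd : 0 < d) : ∫ t, chi d t = d := by
  unfold chi
  rw [integral_indicator measurableSet_Ico]
  simp [hd.le]

lemma chi_shift {d : ℝ} (hd : 0 < d) (x : ℝ) (m : ℕ) :
    chi d (x - d * m) = if 0 ≤ x ∧ ⌊x / d⌋₊ = m then 1 else 0 := by
  unfold chi
  rw [Set.indicator_apply]
  congr 1
  apply propext
  constructor
  · rintro ⟨h1, h2⟩
    have h0 : 0 ≤ x := by have : 0 ≤ d * m := by positivity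
                          linarith
    refine ⟨h0, (Nat.floor_eq_iff (by positivity)).2 ⟨?_, ?_⟩⟩
    · rw [le_div_iff₀ hd]; linarith
    · rw [div_lt_iff₀ hd]; linarith
  · rintro ⟨h0, h1⟩
    obtain ⟨h2, h3⟩ := (Nat.floor_eq_iff (by positivity)).1 h1
    rw [le_div_iff₀ hd] at h2
    rw [div_lt_iff₀ hd] at h3
    constructor <;> linarith

lemma sum_chi {d : ℝ} (hd : 0 < d) (x : ℝ) (N : ℕ) (c : ℕ → ℝ) :
    ∑ m ∈ range N, chi d (x - d * m) * c m =
      if 0 ≤ x ∧ ⌊x / d⌋₊ < N then c ⌊x / d⌋₊ else 0 := by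
  simp only [chi_shift hd]
  by_cases h0 : 0 ≤ x
  · simp only [h0, true_and, ite_mul, one_mul, zero_mul, Finset.sum_ite_eq, Finset.mem_range]
  · simp [h0]

lemma haar_eq (k0 : ℤ) (j n N : ℕ) (x : ℝ) (hx : x < (2 : ℝ) ^ k0 * N) :
    haar (k0 + (j + 1 : ℕ)) n x =
      ∑ m ∈ range N, chi ((2 : ℝ) ^ k0) (x - (2 : ℝ) ^ k0 * m) * dh j n m := by
  have hd : (0 : ℝ) < 2 ^ k0 := by positivity
  set d : ℝ := 2 ^ k0 with hdd
  have hk : (2 : ℝ) ^ (k0 + (j + 1 : ℕ)) = d * 2 ^ j * 2 := by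
    rw [zpow_add₀ (by norm_num), zpow_natCast, pow_succ, hdd]; ring
  rw [sum_chi hd]
  unfold haar
  simp only [Set.indicator_apply, Set.mem_Ico, hk]
  by_cases h0 : 0 ≤ x
  · have hN : ⌊x / d⌋₊ < N := by
      rw [Nat.floor_lt (by positivity), div_lt_iff₀ hd]; linarith
    rw [if_pos (show 0 ≤ x ∧ ⌊x / d⌋₊ < N from ⟨h0, hN⟩)]
    have key : ∀ q : ℕ, d * 2 ^ j * q ≤ x ↔ q ≤ ⌊x / d⌋₊ / 2 ^ j := by
      intro q
      rw [Nat.le_div_iff_mul_le (by positivity), Nat.le_floor_iff (by positivity),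
        le_div_iff₀ hd]
      push_cast
      constructor <;> intro h <;> linarith
    have k1 := key (2 * n)
    have k2 := key (2 * n + 1)
    have k3 := key (2 * n + 2)
    push_cast at k1 k2 k3
    have e1 : d * 2 ^ j * 2 * n = d * 2 ^ j * (2 * n) := by ring
    have e2 : d * 2 ^ j * 2 * (n + 1 / 2) = d * 2 ^ j * (2 * n + 1) := by ring
    have e3 : d * 2 ^ j * 2 * (n + 1) = d * 2 ^ j * (2 * n + 2) := by ring
    simp only [e1, e2, e3, ← not_le, k1, k2, k3, dh]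
    rw [pow_succ, ← Nat.div_div_eq_div_mul]
    generalize ⌊x / d⌋₊ / 2 ^ j = s
    split_ifs <;> first | omega | norm_num
  · have h1 : ¬ (d * 2 ^ j * 2 * n ≤ x) := by
      have : 0 ≤ d * 2 ^ j * 2 * n := by positivity
      intro h; exact h0 (this.trans h)
    have h2 : ¬ (d * 2 ^ j * 2 * (n + 1 / 2) ≤ x) := by
      have : 0 ≤ d * 2 ^ j * 2 * (n + 1 / 2) := by positivity
      intro h; exact h0 (this.trans h)
    simp only [h0, h1, h2, false_and, if_false, sub_zero]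

lemma haar_zero {k : ℤ} {n : ℕ} {x : ℝ} (hx : x ∉ dyad k n) : haar k n x = 0 := by
  have hp : (0 : ℝ) < 2 ^ k := by positivity
  unfold haar
  unfold dyad at hx
  rw [Set.indicator_of_notMem, Set.indicator_of_notMem, sub_zero]
  · rintro ⟨h1, h2⟩
    exact hx ⟨by nlinarith, h2⟩
  · rintro ⟨h1, h2⟩
    exact hx ⟨h1, by nlinarith⟩

/-- The weight of the base cube. -/
noncomputable def w3 (d : ℝ) (u : ℝ × ℝ × ℝ) : ℝ := chi d u.1 * (chi d u.2.1 * chi d u.2.2)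

lemma w3_nonneg (d : ℝ) (u : ℝ × ℝ × ℝ) : 0 ≤ w3 d u :=
  mul_nonneg (chi_nonneg _ _) (mul_nonneg (chi_nonneg _ _) (chi_nonneg _ _))

lemma integrable_w2 (d : ℝ) : Integrable (fun p : ℝ × ℝ => chi d p.1 * chi d p.2) :=
  (integrable_chi d).mul_prod (integrable_chi d)

lemma integrable_w3 (d : ℝ) : Integrable (w3 d) :=
  (integrable_chi d).mul_prod (integrable_w2 d)

/-- Bounded measurable functions. -/
def BM {X : Type} [MeasurableSpace X] (G : X → ℝ) : Prop :=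
  Measurable G ∧ ∃ M : ℝ, ∀ p, |G p| ≤ M

lemma BM.mul {X : Type} [MeasurableSpace X] {G H : X → ℝ} (hG : BM G) (hH : BM H) :
    BM fun x => G x * H x := by
  obtain ⟨h1, M, hM⟩ := hG
  obtain ⟨h2, M', hM'⟩ := hH
  refine ⟨h1.mul h2, M * M', fun p => ?_⟩
  rw [abs_mul]
  exact mul_le_mul (hM p) (hM' p) (abs_nonneg _) ((abs_nonneg _).trans (hM p))

lemma BM.const {X : Type} [MeasurableSpace X] (c : ℝ) : BM fun _ : X => c :=
  ⟨measurable_const, |c|, fun _ => le_rfl⟩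

lemma BM.add {X : Type} [MeasurableSpace X] {G H : X → ℝ} (hG : BM G) (hH : BM H) :
    BM fun x => G x + H x := by
  obtain ⟨h1, M, hM⟩ := hG
  obtain ⟨h2, M', hM'⟩ := hH
  exact ⟨h1.add h2, M + M', fun p => (abs_add_le _ _).trans (add_le_add (hM p) (hM' p))⟩

lemma BM.abs {X : Type} [MeasurableSpace X] {G : X → ℝ} (hG : BM G) : BM fun x => |G x| := by
  obtain ⟨h1, M, hM⟩ := hG
  exact ⟨h1.abs, M, fun p => by rw [abs_abs]; exact hM p⟩

lemma BM.cube {X : Type} [MeasurableSpace X] {G : X → ℝ} (hG : BM G) :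
    BM fun x => |G x| ^ 3 := by
  have := (hG.abs.mul hG.abs).mul hG.abs
  simpa only [pow_succ, pow_zero, one_mul] using this

lemma BM.sum {X : Type} [MeasurableSpace X] {ι : Type} (s : Finset ι) {G : ι → X → ℝ}
    (hG : ∀ i ∈ s, BM (G i)) : BM fun x => ∑ i ∈ s, G i x := by
  classical
  induction s using Finset.induction_on with
  | empty => simpa using BM.const (X := X) 0
  | insert a s ha ih =>
    simp only [Finset.sum_insert ha]
    exact (hG a (Finset.mem_insert_self _ _)).add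
      (ih fun i hi => hG i (Finset.mem_insert_of_mem hi))

lemma BM.comp {X Y : Type} [MeasurableSpace X] [MeasurableSpace Y] {G : Y → ℝ} (hG : BM G)
    {f : X → Y} (hf : Measurable f) : BM fun x => G (f x) := by
  obtain ⟨h1, M, hM⟩ := hG
  exact ⟨h1.comp hf, M, fun p => hM _⟩

lemma BM.integrable_mul {X : Type} [MeasurableSpace X] {μ : Measure X} {w G : X → ℝ}
    (hG : BM G) (hw : Integrable w μ) : Integrable (fun u => w u * G u) μ := by
  obtain ⟨h1, M, hM⟩ := hG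
  exact hw.mul_bdd (c := M) h1.aestronglyMeasurable (Filter.Eventually.of_forall hM)

lemma rightInv2 : (volume : Measure (ℝ × ℝ)).IsAddRightInvariant :=
  Measure.prod.instIsAddRightInvariant

lemma rightInv3 : (volume : Measure (ℝ × ℝ × ℝ)).IsAddRightInvariant :=
  haveI := rightInv2
  Measure.prod.instIsAddRightInvariant

/-- Samples of `F` on the shifted grid. -/
def smp (d : ℝ) (F : ℝ × ℝ → ℝ) (a b : ℝ) : ℕ → ℕ → ℝ := fun m m' => F (a + d * m, b + d * m')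

lemma bm_dT (d : ℝ) (N j n0 n1 n2 : ℕ) {F0 F1 F2 : ℝ × ℝ → ℝ} (h0 : BM F0) (h1 : BM F1)
    (h2 : BM F2) : BM fun u : ℝ × ℝ × ℝ =>
      dT N j n0 n1 n2 (smp d F0 u.1 u.2.1) (smp d F1 u.2.1 u.2.2) (smp d F2 u.2.2 u.1) := by
  unfold dT smp
  refine BM.sum _ fun x0 _ => BM.sum _ fun x1 _ => BM.sum _ fun x2 _ => ?_
  exact (((h0.comp (by fun_prop)).mul (h1.comp (by fun_prop))).mul
    (h2.comp (by fun_prop))).mul (BM.const _)

lemma bm_cub (d : ℝ) (N : ℕ) {F : ℝ × ℝ → ℝ} (h : BM F) :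
    BM fun p : ℝ × ℝ => cub N (smp d F p.1 p.2) := by
  unfold cub smp
  exact BM.sum _ fun x0 _ => BM.sum _ fun x1 _ => (h.comp (by fun_prop)).cube

lemma Lform_eq (k0 : ℤ) (j n0 n1 n2 N : ℕ) {F0 F1 F2 : ℝ × ℝ → ℝ} (h0 : BM F0) (h1 : BM F1)
    (h2 : BM F2) (z0 : ∀ p : ℝ × ℝ, (2 : ℝ) ^ k0 * N ≤ p.1 → F0 p = 0)
    (z1 : ∀ p : ℝ × ℝ, (2 : ℝ) ^ k0 * N ≤ p.1 → F1 p = 0)
    (z2 : ∀ p : ℝ × ℝ, (2 : ℝ) ^ k0 * N ≤ p.1 → F2 p = 0) :
    Lform (k0 + (j + 1 : ℕ)) n0 n1 n2 F0 F1 F2 = ((2 : ℝ) ^ k0)⁻¹ * (1 / 2) ^ (j + 1) *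
      ∫ u : ℝ × ℝ × ℝ, w3 (2 ^ k0) u * dT N j n0 n1 n2 (smp (2 ^ k0) F0 u.1 u.2.1)
        (smp (2 ^ k0) F1 u.2.1 u.2.2) (smp (2 ^ k0) F2 u.2.2 u.1) := by
  unfold Lform
  congr 1
  · rw [neg_add, zpow_add₀ (by norm_num), zpow_neg, zpow_neg, zpow_natCast]
    simp
  set d : ℝ := 2 ^ k0 with hd
  have := rightInv3
  rw [setIntegral_eq_integral_of_forall_compl_eq_zero]
  swap
  · intro x hx
    simp only [Set.mem_prod, not_and_or] at hx
    rcases hx with hx | hx | hx <;> simp only [haar_zero hx, mul_zero, zero_mul]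
  set G : ℝ × ℝ × ℝ → ℝ := fun x => F0 (x.1, x.2.1) * F1 (x.2.1, x.2.2) * F2 (x.2.2, x.1) with hG
  have bG : BM G :=
    ((h0.comp (by fun_prop)).mul (h1.comp (by fun_prop))).mul (h2.comp (by fun_prop))
  set T : ℕ → ℕ → ℕ → ℝ × ℝ × ℝ → ℝ := fun m0 m1 m2 u =>
    w3 d u * (G (u + (d * m0, d * m1, d * m2)) * (dh j n0 m0 * dh j n1 m1 * dh j n2 m2)) with hT
  have iT : ∀ m0 m1 m2, Integrable (T m0 m1 m2) := fun m0 m1 m2 =>
    ((bG.comp (by fun_prop)).mul (BM.const _)).integrable_mul (integrable_w3 d)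
  have pt : ∀ x : ℝ × ℝ × ℝ, G x * (haar (k0 + (j + 1 : ℕ)) n0 x.1 *
      haar (k0 + (j + 1 : ℕ)) n1 x.2.1 * haar (k0 + (j + 1 : ℕ)) n2 x.2.2) =
      ∑ m0 ∈ range N, ∑ m1 ∈ range N, ∑ m2 ∈ range N,
        T m0 m1 m2 (x - (d * m0, d * m1, d * m2)) := by
    intro x
    simp only [hT, sub_add_cancel]
    by_cases hz : G x = 0
    · simp [hz]
    · have a0 : x.1 < d * N := by
        by_contra h
        exact hz (by simp [hG, z0 (x.1, x.2.1) (not_lt.1 h)])
      have a1 : x.2.1 < d * N := by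
        by_contra h
        exact hz (by simp [hG, z1 (x.2.1, x.2.2) (not_lt.1 h)])
      have a2 : x.2.2 < d * N := by
        by_contra h
        exact hz (by simp [hG, z2 (x.2.2, x.1) (not_lt.1 h)])
      rw [haar_eq k0 j n0 N _ a0, haar_eq k0 j n1 N _ a1, haar_eq k0 j n2 N _ a2,
        Finset.sum_mul_sum, Finset.sum_mul, Finset.mul_sum]
      refine Finset.sum_congr rfl fun m0 _ => ?_
      rw [Finset.sum_mul, Finset.mul_sum]
      refine Finset.sum_congr rfl fun m1 _ => ?_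
      rw [Finset.mul_sum, Finset.mul_sum]
      refine Finset.sum_congr rfl fun m2 _ => ?_
      simp only [w3, Prod.fst_sub, Prod.snd_sub, ← hd]
      ring
  have pt2 : ∀ u : ℝ × ℝ × ℝ, w3 d u * dT N j n0 n1 n2 (smp d F0 u.1 u.2.1)
      (smp d F1 u.2.1 u.2.2) (smp d F2 u.2.2 u.1) =
      ∑ m0 ∈ range N, ∑ m1 ∈ range N, ∑ m2 ∈ range N, T m0 m1 m2 u := by
    intro u
    simp only [dT, Finset.mul_sum, hT, hG, smp, Prod.fst_add, Prod.snd_add]
  have iS : ∀ m0 m1 m2 : ℕ, Integrable fun x : ℝ × ℝ × ℝ =>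
      T m0 m1 m2 (x - (d * m0, d * m1, d * m2)) := fun m0 m1 m2 => (iT m0 m1 m2).comp_sub_right _
  change ∫ x, G x * _ = _
  simp only [pt, pt2]
  rw [integral_finsetSum _ fun m0 _ => integrable_finsetSum _ fun m1 _ =>
      integrable_finsetSum _ fun m2 _ => iS m0 m1 m2,
    integral_finsetSum _ fun m0 _ => integrable_finsetSum _ fun m1 _ =>
      integrable_finsetSum _ fun m2 _ => iT m0 m1 m2]
  refine Finset.sum_congr rfl fun m0 _ => ?_
  rw [integral_finsetSum _ fun m1 _ => integrable_finsetSum _ fun m2 _ => iS m0 m1 m2,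
    integral_finsetSum _ fun m1 _ => integrable_finsetSum _ fun m2 _ => iT m0 m1 m2]
  refine Finset.sum_congr rfl fun m1 _ => ?_
  rw [integral_finsetSum _ fun m2 _ => iS m0 m1 m2,
    integral_finsetSum _ fun m2 _ => iT m0 m1 m2]
  refine Finset.sum_congr rfl fun m2 _ => ?_
  exact integral_sub_right_eq_self _ _

end Vale.Agent.P075
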