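import Vale.Agent.P075.Defect

/-! The trilinear estimate and the one-step Bellman inequality. -/

namespace Vale.Agent.P075

open Matrix Finset

variable {α β γ ι κ μ : Type} [Fintype α] [Fintype β] [Fintype γ] [Fintype ι] [Fintype κ]
  [Fintype μ]

/-- Contractions, in bilinear form. -/
def Contr (M : Matrix ι κ ℝ) : Prop :=
  ∀ (x : ι → ℝ) (y : κ → ℝ), 2 * |x ⬝ᵥ (M *ᵥ y)| ≤ x ⬝ᵥ x + y ⬝ᵥ y

lemma two_abs_dot_le (x y : α → ℝ) : 2 * |x ⬝ᵥ y| ≤ x ⬝ᵥ x + y ⬝ᵥ y := by
  have h1 := dot_self_nonneg (x - y)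
  have h2 := dot_self_nonneg (x + y)
  simp only [sub_dotProduct, dotProduct_sub, add_dotProduct, dotProduct_add] at h1 h2
  rw [dotProduct_comm y x] at h1 h2
  rcases abs_cases (x ⬝ᵥ y) with h | h <;> linarith

lemma contr_sandwich [DecidableEq α] [DecidableEq ι] [DecidableEq κ] {V : Matrix α ι ℝ}
    {U : Matrix α κ ℝ} {h : Matrix α α ℝ} (hV : Vᵀ * V = 1) (hU : Uᵀ * U = 1)
    (hh : hᵀ * h = 1) : Contr (Vᵀ * h * U) := by
  intro x y
  have e1 : x ⬝ᵥ ((Vᵀ * h * U) *ᵥ y) = (V *ᵥ x) ⬝ᵥ ((h * U) *ᵥ y) := by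
    rw [Matrix.mul_assoc, ← mulVec_mulVec, dotProduct_mulVec x, vecMul_transpose]
  have e2 : (V *ᵥ x) ⬝ᵥ (V *ᵥ x) = x ⬝ᵥ x := by rw [← dot_gram, hV, one_mulVec]
  have e3 : ((h * U) *ᵥ y) ⬝ᵥ ((h * U) *ᵥ y) = y ⬝ᵥ y := by
    rw [← dot_gram]
    have : (h * U)ᵀ * (h * U) = 1 := by
      calc (h * U)ᵀ * (h * U) = Uᵀ * (hᵀ * h) * U := by
            simp only [transpose_mul, Matrix.mul_assoc]
        _ = 1 := by rw [hh, Matrix.mul_one, hU]
    rw [this, one_mulVec]
  rw [e1, ← e2, ← e3]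
  exact two_abs_dot_le _ _

lemma region {M : Matrix κ μ ℝ} (hM : Contr M) (t : ι → ℝ) (ht : ∀ i, 0 ≤ t i)
    (x : ι → κ → ℝ) (y : ι → μ → ℝ) :
    2 * |∑ i, ∑ j, ∑ k, t i * (x i j * (M j k * y i k))|
      ≤ ∑ i, ∑ j, t i * (x i j * x i j) + ∑ i, ∑ k, t i * (y i k * y i k) := by
  rw [← Finset.sum_add_distrib]
  refine le_trans (mul_le_mul_of_nonneg_left (Finset.abs_sum_le_sum_abs _ _) (by norm_num)) ?_
  rw [Finset.mul_sum]
  refine Finset.sum_le_sum fun i _ => ?_
  have h := hM (x i) (y i)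
  have e : ∑ j, ∑ k, t i * (x i j * (M j k * y i k)) = t i * (x i ⬝ᵥ (M *ᵥ y i)) := by
    simp only [dotProduct, mulVec, Finset.mul_sum]
  rw [e, abs_mul, abs_of_nonneg (ht i), ← Finset.mul_sum, ← Finset.mul_sum]
  have := mul_le_mul_of_nonneg_left h (ht i)
  simp only [dotProduct] at this ⊢
  linarith

/-- The weight `min(a,c)^2 max(a,c)`. -/
noncomputable def wt (a c : ℝ) : ℝ := min a c * (a * c)

lemma trilinear_sum {p : Matrix μ ι ℝ} {q : Matrix ι κ ℝ} {r : Matrix κ μ ℝ}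
    (hp : Contr p) (hq : Contr q) (hr : Contr r) {a : ι → ℝ} {b : κ → ℝ} {c : μ → ℝ}
    (ha : ∀ i, 0 ≤ a i) (hb : ∀ i, 0 ≤ b i) (hc : ∀ i, 0 ≤ c i) :
    2 * |∑ k, ∑ i, ∑ j, p k i * a i * q i j * b j * r j k * c k|
      ≤ ∑ k, ∑ i, wt (a i) (c k) * (p k i * p k i) + ∑ i, ∑ j, wt (b j) (a i) * (q i j * q i j)
        + ∑ j, ∑ k, wt (c k) (b j) * (r j k * r j k) := by
  classical
  have hC := region hq c hc (fun k i => if a i ≤ c k then a i * p k i else 0)
    (fun k j => if b j ≤ c k then b j * r j k else 0)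
  have hA := region hr a ha (fun i j => if b j ≤ a i then b j * q i j else 0)
    (fun i k => if c k < a i then c k * p k i else 0)
  have hB := region hp b hb (fun j k => if c k < b j then c k * r j k else 0)
    (fun j i => if a i < b j then a i * q i j else 0)
  set TC := ∑ k, ∑ i, ∑ j, c k * ((if a i ≤ c k then a i * p k i else 0) *
    (q i j * (if b j ≤ c k then b j * r j k else 0))) with hTC
  set TA := ∑ i, ∑ j, ∑ k, a i * ((if b j ≤ a i then b j * q i j else 0) *
    (r j k * (if c k < a i then c k * p k i else 0))) with hTA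
  set TB := ∑ j, ∑ k, ∑ i, b j * ((if c k < b j then c k * r j k else 0) *
    (p k i * (if a i < b j then a i * q i j else 0))) with hTB
  have eA : TA = ∑ k, ∑ i, ∑ j, a i * ((if b j ≤ a i then b j * q i j else 0) *
      (r j k * (if c k < a i then c k * p k i else 0))) := by
    rw [hTA]
    exact (Finset.sum_congr rfl fun i _ => Finset.sum_comm).trans Finset.sum_comm
  have eB : TB = ∑ k, ∑ i, ∑ j, b j * ((if c k < b j then c k * r j k else 0) *
      (p k i * (if a i < b j then a i * q i j else 0))) := by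
    rw [hTB, Finset.sum_comm]
    exact Finset.sum_congr rfl fun i _ => Finset.sum_comm
  have tot : ∑ k, ∑ i, ∑ j, p k i * a i * q i j * b j * r j k * c k = TC + TA + TB := by
    rw [eA, eB, hTC]
    simp only [← Finset.sum_add_distrib]
    refine Finset.sum_congr rfl fun k _ => Finset.sum_congr rfl fun i _ =>
      Finset.sum_congr rfl fun j _ => ?_
    split_ifs <;> first | ring1 | (exfalso; linarith)
  have s1 : ∑ k, ∑ i, wt (a i) (c k) * (p k i * p k i) =
      ∑ k, ∑ i, c k * ((if a i ≤ c k then a i * p k i else 0) *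
        (if a i ≤ c k then a i * p k i else 0)) +
      ∑ i, ∑ k, a i * ((if c k < a i then c k * p k i else 0) *
        (if c k < a i then c k * p k i else 0)) := by
    rw [Finset.sum_comm (f := fun i k => a i * _)]
    simp only [← Finset.sum_add_distrib]
    refine Finset.sum_congr rfl fun k _ => Finset.sum_congr rfl fun i _ => ?_
    unfold wt
    rcases le_or_gt (a i) (c k) with h | h
    · rw [if_pos h, if_neg (not_lt.2 h), min_eq_left h]; ring
    · rw [if_neg (not_le.2 h), if_pos h, min_eq_right h.le]; ring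
  have s2 : ∑ i, ∑ j, wt (b j) (a i) * (q i j * q i j) =
      ∑ i, ∑ j, a i * ((if b j ≤ a i then b j * q i j else 0) *
        (if b j ≤ a i then b j * q i j else 0)) +
      ∑ j, ∑ i, b j * ((if a i < b j then a i * q i j else 0) *
        (if a i < b j then a i * q i j else 0)) := by
    rw [Finset.sum_comm (f := fun j i => b j * _)]
    simp only [← Finset.sum_add_distrib]
    refine Finset.sum_congr rfl fun i _ => Finset.sum_congr rfl fun j _ => ?_
    unfold wt
    rcases le_or_gt (b j) (a i) with h | h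
    · rw [if_pos h, if_neg (not_lt.2 h), min_eq_left h]; ring
    · rw [if_neg (not_le.2 h), if_pos h, min_eq_right h.le]; ring
  have s3 : ∑ j, ∑ k, wt (c k) (b j) * (r j k * r j k) =
      ∑ k, ∑ j, c k * ((if b j ≤ c k then b j * r j k else 0) *
        (if b j ≤ c k then b j * r j k else 0)) +
      ∑ j, ∑ k, b j * ((if c k < b j then c k * r j k else 0) *
        (if c k < b j then c k * r j k else 0)) := by
    rw [Finset.sum_comm (f := fun k j => c k * _)]
    simp only [← Finset.sum_add_distrib]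
    refine Finset.sum_congr rfl fun j _ => Finset.sum_congr rfl fun k _ => ?_
    unfold wt
    rcases le_or_gt (b j) (c k) with h | h
    · rw [if_pos h, if_neg (not_lt.2 h), min_eq_right h]; ring
    · rw [if_neg (not_le.2 h), if_pos h, min_eq_left h.le]; ring
  rw [tot, s1, s2, s3]
  have := abs_add_three TC TA TB
  linarith

/-- One third of the Bellman step. -/
lemma third [DecidableEq α] [DecidableEq β] [DecidableEq γ] [DecidableEq ι] [DecidableEq μ]
    (A : Matrix α β ℝ) (C : Matrix γ α ℝ)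
    {UA : Matrix α ι ℝ} {VA : Matrix β ι ℝ} {a : ι → ℝ} (ha : ∀ i, 0 ≤ a i)
    (hUA : UAᵀ * UA = 1) (hVA : VAᵀ * VA = 1) (hA : A = UA * diagonal a * VAᵀ)
    {UC : Matrix γ μ ℝ} {VC : Matrix α μ ℝ} {c : μ → ℝ} (hc : ∀ i, 0 ≤ c i)
    (hUC : UCᵀ * UC = 1) (hVC : VCᵀ * VC = 1) (hC : C = UC * diagonal c * VCᵀ)
    {P0 P1 h : Matrix α α ℝ} (hP0 : P0ᵀ = P0) (hP1 : P1ᵀ = P1)
    (hs : P0 * P0 + P1 * P1 = 1) (hh : P0 * P0 - P1 * P1 = h)
    {Q0 Q1 : Matrix β β ℝ} (hQ : Q0 * Q0ᵀ + Q1 * Q1ᵀ = 1)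
    {R0 R1 : Matrix γ γ ℝ} (hR : R0ᵀ * R0 + R1ᵀ * R1 = 1) :
    √2 / 8 * ∑ k, ∑ i, wt (a i) (c k) * ((VCᵀ * h * UA) k i * (VCᵀ * h * UA) k i)
      ≤ 2 * (phi ((P0 * A * Q0) * (P0 * A * Q0)ᵀ + (R0 * C * P0)ᵀ * (R0 * C * P0))
          + phi ((P0 * A * Q1) * (P0 * A * Q1)ᵀ + (R1 * C * P0)ᵀ * (R1 * C * P0))
          + phi ((P1 * A * Q0) * (P1 * A * Q0)ᵀ + (R1 * C * P1)ᵀ * (R1 * C * P1))
          + phi ((P1 * A * Q1) * (P1 * A * Q1)ᵀ + (R0 * C * P1)ᵀ * (R0 * C * P1)))
        - phi (A * Aᵀ + Cᵀ * C) := by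
  have e1 : (UA * diagonal a) * (UA * diagonal a)ᵀ = A * Aᵀ := by
    calc _ = UA * diagonal a * (VAᵀ * VA) * diagonal a * UAᵀ := by
          rw [hVA]; simp only [transpose_mul, diagonal_transpose, Matrix.mul_assoc, Matrix.mul_one]
      _ = _ := by
          rw [hA]; simp only [transpose_mul, transpose_transpose, diagonal_transpose,
            Matrix.mul_assoc]
  have e2 : (VC * diagonal c) * (VC * diagonal c)ᵀ = Cᵀ * C := by
    calc _ = VC * diagonal c * (UCᵀ * UC) * diagonal c * VCᵀ := by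
          rw [hUC]; simp only [transpose_mul, diagonal_transpose, Matrix.mul_assoc, Matrix.mul_one]
      _ = _ := by
          rw [hC]; simp only [transpose_mul, transpose_transpose, diagonal_transpose,
            Matrix.mul_assoc]
  have g1 : (UA * diagonal a)ᵀ * (UA * diagonal a) = diagonal a * diagonal a := by
    calc _ = diagonal a * (UAᵀ * UA) * diagonal a := by
          simp only [transpose_mul, diagonal_transpose, Matrix.mul_assoc]
      _ = _ := by rw [hUA, Matrix.mul_one]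
  have g2 : (VC * diagonal c)ᵀ * (VC * diagonal c) = diagonal c * diagonal c := by
    calc _ = diagonal c * (VCᵀ * VC) * diagonal c := by
          simp only [transpose_mul, diagonal_transpose, Matrix.mul_assoc]
      _ = _ := by rw [hVC, Matrix.mul_one]
  set p := VCᵀ * h * UA with hp
  have hd := defect_rows (UA * diagonal a) (VC * diagonal c) ha hc g1 g2 hP0 hP1 hs hh
    (Matrix.of fun k i => 1 / 4 * min (a i) (c k) * p k i)
  rw [e1, e2] at hd
  have m : (VC * diagonal c)ᵀ * h * (UA * diagonal a) = diagonal c * p * diagonal a := by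
    rw [hp]; simp only [transpose_mul, diagonal_transpose, Matrix.mul_assoc]
  rw [m] at hd
  have low : 1 / 8 * ∑ k, ∑ i, wt (a i) (c k) * (p k i * p k i) ≤
      ∑ k, ∑ i, ((Matrix.of fun k i => 1 / 4 * min (a i) (c k) * p k i) k i *
        (diagonal c * p * diagonal a) k i - (a i + c k) *
        ((Matrix.of fun k i => 1 / 4 * min (a i) (c k) * p k i) k i *
          (Matrix.of fun k i => 1 / 4 * min (a i) (c k) * p k i) k i)) := by
    simp only [Finset.mul_sum]
    refine Finset.sum_le_sum fun k _ => Finset.sum_le_sum fun i _ => ?_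
    simp only [of_apply, mul_diagonal, diagonal_mul, wt]
    have h1 := ha i
    have h2 := hc k
    have h3 := mul_self_nonneg (p k i)
    rcases le_total (a i) (c k) with h4 | h4
    · rw [min_eq_left h4]
      have : 0 ≤ a i * a i * (c k - a i) * (p k i * p k i) := by
        have := sub_nonneg.2 h4
        positivity
      nlinarith
    · rw [min_eq_right h4]
      have : 0 ≤ c k * c k * (a i - c k) * (p k i * p k i) := by
        have := sub_nonneg.2 h4
        positivity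
      nlinarith
  have split : ∀ (P : Matrix α α ℝ) (R0 R1 : Matrix γ γ ℝ), Pᵀ = P → R0ᵀ * R0 + R1ᵀ * R1 = 1 →
      phi (P * (A * Aᵀ + Cᵀ * C) * P) ≤
        √2 * (phi ((P * A * Q0) * (P * A * Q0)ᵀ + (R0 * C * P)ᵀ * (R0 * C * P))
          + phi ((P * A * Q1) * (P * A * Q1)ᵀ + (R1 * C * P)ᵀ * (R1 * C * P))) := by
    intro P R0 R1 hP hR
    have := phi_add_le ((psd_gram' (P * A * Q0)).add (psd_gram (R0 * C * P)))
      ((psd_gram' (P * A * Q1)).add (psd_gram (R1 * C * P)))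
    refine le_trans (le_of_eq ?_) this
    congr 1
    calc P * (A * Aᵀ + Cᵀ * C) * P
        = P * (A * (Q0 * Q0ᵀ + Q1 * Q1ᵀ) * Aᵀ + Cᵀ * (R0ᵀ * R0 + R1ᵀ * R1) * C) * P := by
          rw [hQ, hR, Matrix.mul_one, Matrix.mul_one]
      _ = _ := by
          simp only [transpose_mul, hP, Matrix.mul_add, Matrix.add_mul, Matrix.mul_assoc]
          abel
  have sp0 := split P0 R0 R1 hP0 hR
  have sp1 := split P1 R1 R0 hP1 (by rw [add_comm]; exact hR)
  have s2 := sqrt_two_mul_self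
  have s2p := sqrt_two_pos
  have a1 := mul_le_mul_of_nonneg_left low s2p.le
  have a2 := mul_le_mul_of_nonneg_left (add_le_add sp0 sp1) s2p.le
  rw [← mul_add √2, ← mul_assoc √2 √2, s2] at a2
  linarith

/-- The Bellman function of a triple of matrices. -/
noncomputable def bell (A : Matrix α β ℝ) (B : Matrix β γ ℝ) (C : Matrix γ α ℝ) : ℝ :=
  phi (A * Aᵀ + Cᵀ * C) + phi (B * Bᵀ + Aᵀ * A) + phi (C * Cᵀ + Bᵀ * B)

lemma bell_nonneg (A : Matrix α β ℝ) (B : Matrix β γ ℝ) (C : Matrix γ α ℝ) : 0 ≤ bell A B C :=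
  add_nonneg (add_nonneg (phi_nonneg _) (phi_nonneg _)) (phi_nonneg _)

/-- A splitting of the coordinates into two halves. -/
structure Split [DecidableEq α] (P0 P1 h : Matrix α α ℝ) : Prop where
  s0 : P0ᵀ = P0
  s1 : P1ᵀ = P1
  sum : P0 * P0 + P1 * P1 = 1
  diff : P0 * P0 - P1 * P1 = h
  orth : hᵀ * h = 1

/-- The one-step Bellman inequality. -/
lemma bell_step [DecidableEq α] [DecidableEq β] [DecidableEq γ]
    (A : Matrix α β ℝ) (B : Matrix β γ ℝ) (C : Matrix γ α ℝ)
    {P0 P1 h0 : Matrix α α ℝ} (hP : Split P0 P1 h0)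
    {Q0 Q1 h1 : Matrix β β ℝ} (hQ : Split Q0 Q1 h1)
    {R0 R1 h2 : Matrix γ γ ℝ} (hR : Split R0 R1 h2) :
    |trace (h0 * A * h1 * B * h2 * C)| ≤ 2 * √2 *
      (2 * (bell (P0 * A * Q0) (Q0 * B * R0) (R0 * C * P0)
          + bell (P0 * A * Q1) (Q1 * B * R1) (R1 * C * P0)
          + bell (P1 * A * Q0) (Q0 * B * R1) (R1 * C * P1)
          + bell (P1 * A * Q1) (Q1 * B * R0) (R0 * C * P1)) - bell A B C) := by
  obtain ⟨ιA, _, _, UA, VA, a, ha, hUA, hVA, hA⟩ := exists_svd A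
  obtain ⟨ιB, _, _, UB, VB, b, hb, hUB, hVB, hB⟩ := exists_svd B
  obtain ⟨ιC, _, _, UC, VC, c, hc, hUC, hVC, hC⟩ := exists_svd C
  have t0 := third A C ha hUA hVA hA hc hUC hVC hC hP.s0 hP.s1 hP.sum hP.diff
    (Q0 := Q0) (Q1 := Q1) (by rw [hQ.s0, hQ.s1]; exact hQ.sum)
    (R0 := R0) (R1 := R1) (by rw [hR.s0, hR.s1]; exact hR.sum)
  have t1 := third B A hb hUB hVB hB ha hUA hVA hA hQ.s0 hQ.s1 hQ.sum hQ.diff
    (Q0 := R0) (Q1 := R1) (by rw [hR.s0, hR.s1]; exact hR.sum)
    (R0 := P0) (R1 := P1) (by rw [hP.s0, hP.s1]; exact hP.sum)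
  have t2 := third C B hc hUC hVC hC hb hUB hVB hB hR.s0 hR.s1 hR.sum hR.diff
    (Q0 := P0) (Q1 := P1) (by rw [hP.s0, hP.s1]; exact hP.sum)
    (R0 := Q0) (R1 := Q1) (by rw [hQ.s0, hQ.s1]; exact hQ.sum)
  have tri := trilinear_sum (contr_sandwich hVC hUA hP.orth) (contr_sandwich hVA hUB hQ.orth)
    (contr_sandwich hVB hUC hR.orth) ha hb hc
  have e : trace (h0 * A * h1 * B * h2 * C) = ∑ k, ∑ i, ∑ j, (VCᵀ * h0 * UA) k i * a i *
      (VAᵀ * h1 * UB) i j * b j * (VBᵀ * h2 * UC) j k * c k := by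
    calc trace (h0 * A * h1 * B * h2 * C)
        = trace ((h0 * UA * diagonal a * (VAᵀ * h1 * UB) * diagonal b * (VBᵀ * h2 * UC)
            * diagonal c) * VCᵀ) := by
          conv_lhs => rw [hA, hB, hC]
          simp only [Matrix.mul_assoc]
      _ = trace (VCᵀ * (h0 * UA * diagonal a * (VAᵀ * h1 * UB) * diagonal b * (VBᵀ * h2 * UC)
            * diagonal c)) := trace_mul_comm _ _
      _ = trace ((VCᵀ * h0 * UA) * diagonal a * (VAᵀ * h1 * UB) * diagonal b * (VBᵀ * h2 * UC)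
            * diagonal c) := by simp only [Matrix.mul_assoc]
      _ = _ := by
          generalize VCᵀ * h0 * UA = p
          generalize VAᵀ * h1 * UB = q
          generalize VBᵀ * h2 * UC = r
          simp only [trace, diag_apply, mul_diagonal, Matrix.mul_apply (N := r),
            Matrix.mul_apply (N := q), Finset.sum_mul]
          exact Finset.sum_congr rfl fun k _ => Finset.sum_comm
  rw [← e] at tri
  have s2 := sqrt_two_mul_self
  have s2p := sqrt_two_pos
  unfold bell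
  have a1 := mul_le_mul_of_nonneg_left (add_le_add (add_le_add t0 t1) t2)
    (by positivity : (0 : ℝ) ≤ 2 * √2)
  rw [← mul_add (√2 / 8), ← mul_add (√2 / 8), ← mul_assoc] at a1
  have s3 : 2 * √2 * (√2 / 8) = (1 / 2 : ℝ) := by linarith
  rw [s3] at a1
  linarith

end Vale.Agent.P075
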